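import Vale.Agent.H38.Fusf.Inner

/-!
# P143 free products of Z_3, row FU-1 (Basic): generators, rotation, triangles

TASK FU-1 (proved; the statements are kept exactly); helper lemmas in this file with
names starting `basic_`.
Recipe.  `gen j = of (ofAdd 1)`; `Monoid.CoprodI.of` is a monoid homomorphism and injective
(`Monoid.CoprodI.of_injective`), so `gen j * gen j = of (ofAdd 2)`, `gen j ^ 3 = of (ofAdd 3) = 1`
(in `Multiplicative (ZMod 3)`: `decide`).  `rot e = (e.1 * gen e.2, e.2)`, so
`rot (rot (rot e)) = (e.1 * gen e.2 * gen e.2 * gen e.2, e.2) = e` (`mul_assoc`, `gen_cube`);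
`rot e = e` would give `gen e.2 = 1`, `rot (rot e) = e` would give `gen e.2 * gen e.2 = 1`.
`tri e = {e, rot e, rot (rot e)}` (three different edges).  `tri (rot e) = tri e` from
`rot_rot_rot`; `tri_eq_of_mem` by the three cases.
-/

open MeasureTheory

namespace Vale.Agent.H38.Fusf

theorem basic_of_mul {k : ℕ} (j : Fin k) (a b : Multiplicative (ZMod 3)) :
    Monoid.CoprodI.of (M := fun _ : Fin k => Multiplicative (ZMod 3)) (i := j) a
      * Monoid.CoprodI.of (M := fun _ : Fin k => Multiplicative (ZMod 3)) (i := j) b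
    = Monoid.CoprodI.of (M := fun _ : Fin k => Multiplicative (ZMod 3)) (i := j) (a * b) :=
  (map_mul _ a b).symm

theorem basic_of_eq_one {k : ℕ} (j : Fin k) (a : Multiplicative (ZMod 3))
    (h : Monoid.CoprodI.of (M := fun _ : Fin k => Multiplicative (ZMod 3)) (i := j) a = 1) :
    a = 1 := by
  apply Monoid.CoprodI.of_injective (M := fun _ : Fin k => Multiplicative (ZMod 3)) j
  rw [h, map_one]

theorem gen_ne_one {k : ℕ} (j : Fin k) : gen j ≠ 1 := by
  intro h
  have h2 := basic_of_eq_one j _ h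
  revert h2
  decide

theorem gen_sq_ne_one {k : ℕ} (j : Fin k) : gen j * gen j ≠ 1 := by
  intro h
  unfold gen at h
  rw [basic_of_mul] at h
  have h2 := basic_of_eq_one j _ h
  revert h2
  decide

theorem gen_cube {k : ℕ} (j : Fin k) : gen j * gen j * gen j = 1 := by
  unfold gen
  rw [basic_of_mul, basic_of_mul]
  have h : Multiplicative.ofAdd (1 : ZMod 3) * Multiplicative.ofAdd (1 : ZMod 3)
      * Multiplicative.ofAdd (1 : ZMod 3) = 1 := by decide
  rw [h, map_one]

theorem rot_rot_rot {k : ℕ} (e : Edge k) : rot (rot (rot e)) = e := by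
  obtain ⟨g, j⟩ := e
  have h : g * gen j * gen j * gen j = g := by
    rw [mul_assoc, mul_assoc, ← mul_assoc (gen j), gen_cube, mul_one]
  show (g * gen j * gen j * gen j, j) = (g, j)
  rw [h]

theorem rot_ne {k : ℕ} (e : Edge k) : rot e ≠ e := by
  intro h
  have h1 : e.1 * gen e.2 = e.1 := congrArg Prod.fst h
  have h2 : e.1 * gen e.2 = e.1 * 1 := by rw [mul_one]; exact h1
  exact gen_ne_one e.2 (mul_left_cancel h2)

theorem rot_rot_ne {k : ℕ} (e : Edge k) : rot (rot e) ≠ e := by
  intro h
  have h1 : e.1 * gen e.2 * gen e.2 = e.1 := congrArg Prod.fst h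
  have h2 : e.1 * (gen e.2 * gen e.2) = e.1 * 1 := by rw [← mul_assoc, mul_one]; exact h1
  exact gen_sq_ne_one e.2 (mul_left_cancel h2)

theorem rot_injective {k : ℕ} : Function.Injective (rot (k := k)) := by
  intro e f h
  obtain ⟨g, j⟩ := e
  obtain ⟨g', j'⟩ := f
  have h2 : j = j' := congrArg Prod.snd h
  subst h2
  have h1 : g * gen j = g' * gen j := congrArg Prod.fst h
  rw [mul_right_cancel h1]

theorem rot_rot_tgt {k : ℕ} (e : Edge k) : (rot (rot e)).1 * gen (rot (rot e)).2 = e.1 :=
  congrArg Prod.fst (rot_rot_rot e)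

theorem mem_tri_iff {k : ℕ} {e f : Edge k} : f ∈ tri e ↔ f = e ∨ f = rot e ∨ f = rot (rot e) := by
  unfold tri
  rw [Finset.mem_insert, Finset.mem_insert, Finset.mem_singleton]

theorem tri_rot {k : ℕ} (e : Edge k) : tri (rot e) = tri e := by
  ext f
  rw [mem_tri_iff, mem_tri_iff, rot_rot_rot]
  tauto

theorem tri_eq_of_mem {k : ℕ} {e f : Edge k} (h : f ∈ tri e) : tri f = tri e := by
  rcases mem_tri_iff.1 h with h1 | h1 | h1
  · rw [h1]
  · rw [h1, tri_rot]
  · rw [h1, tri_rot, tri_rot]

theorem rot_mem_tri_iff {k : ℕ} {e f : Edge k} : rot f ∈ tri e ↔ f ∈ tri e := by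
  rw [mem_tri_iff, mem_tri_iff]
  constructor
  · rintro (h | h | h)
    · right; right
      rw [← h, rot_rot_rot]
    · left
      exact rot_injective h
    · right; left
      exact rot_injective h
  · rintro (h | h | h)
    · right; left
      rw [h]
    · right; right
      rw [h]
    · left
      rw [h, rot_rot_rot]

theorem card_tri {k : ℕ} (e : Edge k) : (tri e).card = 3 := by
  have h1 : e ≠ rot e := fun h => rot_ne e h.symm
  have h2 : e ≠ rot (rot e) := fun h => rot_rot_ne e h.symm
  have h3 : rot e ≠ rot (rot e) := fun h => h1 (rot_injective h)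
  exact Finset.card_eq_three.2 ⟨e, rot e, rot (rot e), h1, h2, h3, rfl⟩

theorem subset_triU {k : ℕ} (F : Finset (Edge k)) : F ⊆ triU F := by
  intro e he
  unfold triU
  rw [Finset.mem_biUnion]
  exact ⟨e, he, mem_tri_iff.2 (Or.inl rfl)⟩

theorem tri_subset_triU {k : ℕ} {F : Finset (Edge k)} {e : Edge k} (he : e ∈ F) :
    tri e ⊆ triU F :=
  Finset.subset_biUnion_of_mem tri he

end Vale.Agent.H38.Fusf
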