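import Vale.Agent.H38.Fusf.Word
import Vale.Agent.H38.Fusf.Basic

/-!
# P143 free products of Z_3, row FB-1 (Child): appending a letter of a new factor is injective

TASK FB-1: replace the placeholder, keep the statement exactly; helper lemmas with names starting
`child_`.  May use Word.lean and Basic.lean as black boxes.
The hypothesis `hj` says: the last letter of the reduced word of `g` is not in the free factor
number `j` (the first letter of the reduced word of `g⁻¹` is not in factor `j`).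
Recipe.  Take inverses in `h`: with `a := of (i := j) m⁻¹`, `a' := of (i := j') m'⁻¹`
(`mul_inv_rev`, `map_inv`): `a * g⁻¹ = a' * g'⁻¹`.  With `w := Word.equiv g⁻¹` (so `g⁻¹ = w.prod`,
`Word.equiv.symm_apply_apply` / `Word.prod` is the inverse of `Word.equiv`) and `m⁻¹ ≠ 1`:
`Word.equiv (of m⁻¹ * w.prod) = Word.cons m⁻¹ w _ _` (the word `w` does not start in factor `j`;
`Word.prod_cons`, `Equiv.apply_symm_apply`; compare `Word.cons_eq_smul`).  The same for `g'`.
Two equal words `Word.cons m⁻¹ w _ _ = Word.cons m'⁻¹ w' _ _` have equal lists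
(`congrArg Word.toList`): `⟨j, m⁻¹⟩ :: w.toList = ⟨j', m'⁻¹⟩ :: w'.toList`, so `j = j'`,
`m⁻¹ = m'⁻¹` (`List.cons.inj`, `Sigma.mk.inj` / `eq_of_heq` after `subst`) and `w = w'`
(`Word.ext`), hence `g⁻¹ = g'⁻¹` (`Equiv.injective`) and `g = g'` (`inv_injective`).
-/

open MeasureTheory

namespace Vale.Agent.H38.Fusf

section ChildAux

open Monoid.CoprodI

variable {ι : Type*} {M : ι → Type*} [∀ i, Monoid (M i)] [DecidableEq ι]
  [∀ i, DecidableEq (M i)]

theorem child_equiv_cons {i : ι} (m : M i) (hm : m ≠ 1) (x : Monoid.CoprodI M)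
    (hx : (Word.equiv x).fstIdx ≠ some i) :
    Word.equiv (of m * x) = Word.cons m (Word.equiv x) hx hm := by
  have h : of m * x = (Word.cons m (Word.equiv x) hx hm).prod := by
    rw [Word.prod_cons, word_prod_equiv]
  rw [h, word_equiv_prod]

theorem child_cons_inj {i i' : ι} (m : M i) (m' : M i') (hm : m ≠ 1) (hm' : m' ≠ 1)
    (x x' : Monoid.CoprodI M) (hx : (Word.equiv x).fstIdx ≠ some i)
    (hx' : (Word.equiv x').fstIdx ≠ some i') (h : of m * x = of m' * x') :
    x = x' ∧ (⟨i, m⟩ : Σ i, M i) = ⟨i', m'⟩ := by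
  have h1 := child_equiv_cons m hm x hx
  have h2 := child_equiv_cons m' hm' x' hx'
  rw [h] at h1
  have h3 : Word.cons m (Word.equiv x) hx hm = Word.cons m' (Word.equiv x') hx' hm' :=
    h1.symm.trans h2
  have h4 := congrArg Word.toList h3
  simp only [Word.cons] at h4
  obtain ⟨ha, hb⟩ := List.cons.inj h4
  refine ⟨?_, ha⟩
  have h5 : Word.equiv x = Word.equiv x' := Word.ext hb
  exact Word.equiv.injective h5

end ChildAux

theorem child_inj {k : ℕ} (g g' : Gam k) (j j' : Fin k) (m m' : Multiplicative (ZMod 3))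
    (hm : m ≠ 1) (hm' : m' ≠ 1)
    (hj : (Monoid.CoprodI.Word.equiv g⁻¹).fstIdx ≠ some j)
    (hj' : (Monoid.CoprodI.Word.equiv g'⁻¹).fstIdx ≠ some j')
    (h : g * Monoid.CoprodI.of (M := fun _ : Fin k => Multiplicative (ZMod 3)) (i := j) m =
      g' * Monoid.CoprodI.of (M := fun _ : Fin k => Multiplicative (ZMod 3)) (i := j') m') :
    g = g' ∧ j = j' ∧ m = m' := by
  have hinv := congrArg (fun x => x⁻¹) h
  simp only [mul_inv_rev, ← map_inv] at hinv
  have hm1 : m⁻¹ ≠ 1 := fun hh => hm (inv_eq_one.mp hh)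
  have hm1' : m'⁻¹ ≠ 1 := fun hh => hm' (inv_eq_one.mp hh)
  obtain ⟨hg, hs⟩ := child_cons_inj (M := fun _ : Fin k => Multiplicative (ZMod 3))
    (i := j) (i' := j') m⁻¹ m'⁻¹ hm1 hm1' g⁻¹ g'⁻¹ hj hj' hinv
  obtain ⟨hjj, hmm⟩ := Sigma.mk.inj hs
  exact ⟨inv_injective hg, hjj, inv_injective (eq_of_heq hmm)⟩

end Vale.Agent.H38.Fusf
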