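import Vale.Agent.H38.Fusf.Pat

/-!
# P143 free products of Z_3, row FU-10 (Comb): rotation invariant weights on patterns

TASK FU-10: replace the placeholder, keep the statement exactly; helper lemmas with names starting
`comb_`.  Uses Pat.lean and Basic.lean as black boxes.
Recipe.  (i) For `ν` with `hpat`, `hrot`: `ν A = ν B` for all patterns `A, B ⊆ triU F`.  Prove by
induction on `S ⊆ F` (`Finset.induction_on`, or on a list of `F`): for patterns `A, B ⊆ triU F`
which agree outside `triU S` (`∀ f ∈ triU F, f ∉ triU S → (f ∈ A ↔ f ∈ B)`), `ν A = ν B`.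
`S = ∅`: `A = B`.  Step `insert e S`: `tri e \ A = {a}`, `tri e \ B = {b}` (`IsPat`, `e ∈ F`);
`b ∈ {a, rot a, rot (rot a)}` (`tri_eq_of_mem`); let `A'` be `A`, `rho e A` or `rho e (rho e A)`
accordingly: `tri e \ A' = {b}` (`mem_rho_iff`: `f ∈ tri e \ rho e A ↔ rot (rot f) ∈ tri e \ A`),
so `A'` and `B` agree on `tri e`; outside `tri e` the set `A'` agrees with `A`; `A'` is a pattern
inside `triU F` (`isPat_rho`, `rho_subset_triU`) and `ν A' = ν A` (`hrot`).  So `A'`, `B` agree
outside `triU S` and the induction hypothesis applies.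
(ii) With `P` the set of patterns inside `triU F` (a classical filter of the powerset) and `c_i`
the constant value of `ν_i` on `P` (if `P` is empty both sums are `0 ≠ 1`):
`1 = ∑ ν_i = c_i * P.card` (`Finset.sum_filter_add_sum_filter_not`, `Finset.sum_const`), hence
`c_1 = c_2`.  Off `P` both vanish.
-/

open MeasureTheory

namespace Vale.Agent.H38.Fusf

/-- Outside the triangle of `e` the rotation `rho e` changes nothing. -/
theorem comb_rho_outside {k : ℕ} {e f : Edge k} {A : Finset (Edge k)} (hf : f ∉ tri e) :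
    f ∈ rho e A ↔ f ∈ A := by
  rw [mem_rho_iff]
  constructor
  · rintro (⟨-, h⟩ | ⟨h, -⟩)
    · exact h
    · exact absurd h hf
  · intro h
    exact Or.inl ⟨hf, h⟩

/-- The missing edge of the triangle of `e` is rotated by `rho e`. -/
theorem comb_sdiff_rho {k : ℕ} {e a : Edge k} {A : Finset (Edge k)} (h : tri e \ A = {a}) :
    tri e \ rho e A = {rot a} := by
  have ha : a ∈ tri e \ A := by
    rw [h]
    exact Finset.mem_singleton_self a
  rw [Finset.mem_sdiff] at ha
  ext f
  rw [Finset.mem_sdiff, Finset.mem_singleton, mem_rho_iff]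
  constructor
  · rintro ⟨hf, hnot⟩
    have h1 : rot (rot f) ∉ A := fun hA => hnot (Or.inr ⟨hf, hA⟩)
    have h2 : rot (rot f) ∈ tri e := rot_mem_tri_iff.2 (rot_mem_tri_iff.2 hf)
    have h3 : rot (rot f) ∈ tri e \ A := Finset.mem_sdiff.2 ⟨h2, h1⟩
    rw [h, Finset.mem_singleton] at h3
    rw [← h3, rot_rot_rot]
  · intro hfa
    subst hfa
    refine ⟨rot_mem_tri_iff.2 ha.1, ?_⟩
    rintro (⟨h1, -⟩ | ⟨-, h2⟩)
    · exact h1 (rot_mem_tri_iff.2 ha.1)
    · rw [rot_rot_rot] at h2
      exact ha.2 h2

/-- Membership in a set missing exactly the edge `b` of the triangle of `e`. -/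
theorem comb_mem_iff_ne {k : ℕ} {e f b : Edge k} {X : Finset (Edge k)}
    (h : tri e \ X = {b}) (hf : f ∈ tri e) : f ∈ X ↔ f ≠ b := by
  constructor
  · intro hfX hfb
    have h1 : f ∈ tri e \ X := by
      rw [h, hfb]
      exact Finset.mem_singleton_self b
    exact (Finset.mem_sdiff.1 h1).2 hfX
  · intro hfb
    by_contra hfX
    have h1 : f ∈ tri e \ X := Finset.mem_sdiff.2 ⟨hf, hfX⟩
    rw [h, Finset.mem_singleton] at h1
    exact hfb h1

/-- A rotation invariant weight takes the same value on two patterns which agree outside the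
triangles of `S ⊆ F`. -/
theorem comb_inv {k : ℕ} (F : Finset (Edge k)) (ν : Finset (Edge k) → ℝ)
    (hrot : ∀ e ∈ F, ∀ A, A ⊆ triU F → ν (rho e A) = ν A) (S : Finset (Edge k)) :
    S ⊆ F → ∀ A B, A ⊆ triU F → B ⊆ triU F → IsPat F A → IsPat F B →
      (∀ f ∈ triU F, f ∉ triU S → (f ∈ A ↔ f ∈ B)) → ν A = ν B := by
  induction S using Finset.induction_on with
  | empty =>
    intro _ A B hA hB _ _ hAB
    have hne : ∀ f : Edge k, f ∉ triU (∅ : Finset (Edge k)) := by
      intro f hf
      unfold triU at hf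
      rw [Finset.biUnion_empty] at hf
      exact absurd hf (Finset.notMem_empty f)
    have hEq : A = B := by
      ext f
      constructor
      · intro hf
        exact (hAB f (hA hf) (hne f)).1 hf
      · intro hf
        exact (hAB f (hB hf) (hne f)).2 hf
    rw [hEq]
  | insert e S heS ih =>
    intro hSF A B hA hB hPA hPB hAB
    have he : e ∈ F := hSF (Finset.mem_insert_self e S)
    have hS : S ⊆ F := fun x hx => hSF (Finset.mem_insert_of_mem hx)
    obtain ⟨a, ha⟩ := Finset.card_eq_one.1 (hPA e he)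
    obtain ⟨b, hb⟩ := Finset.card_eq_one.1 (hPB e he)
    have key : ∃ A', A' ⊆ triU F ∧ IsPat F A' ∧ ν A' = ν A ∧ tri e \ A' = {b} ∧
        ∀ f, f ∉ tri e → (f ∈ A' ↔ f ∈ A) := by
      have ha' : a ∈ tri e := by
        have h0 : a ∈ tri e \ A := by
          rw [ha]
          exact Finset.mem_singleton_self a
        exact (Finset.mem_sdiff.1 h0).1
      have hb' : b ∈ tri e := by
        have h0 : b ∈ tri e \ B := by
          rw [hb]
          exact Finset.mem_singleton_self b
        exact (Finset.mem_sdiff.1 h0).1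
      have hba : b ∈ tri a := by
        rw [tri_eq_of_mem ha']
        exact hb'
      rcases mem_tri_iff.1 hba with h0 | h0 | h0
      · subst h0
        exact ⟨A, hA, hPA, rfl, ha, fun f _ => Iff.rfl⟩
      · subst h0
        exact ⟨rho e A, rho_subset_triU he hA, (isPat_rho F e A).2 hPA, hrot e he A hA,
          comb_sdiff_rho ha, fun f hf => comb_rho_outside hf⟩
      · subst h0
        refine ⟨rho e (rho e A), rho_subset_triU he (rho_subset_triU he hA),
          (isPat_rho F e _).2 ((isPat_rho F e A).2 hPA), ?_,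
          comb_sdiff_rho (comb_sdiff_rho ha), fun f hf => ?_⟩
        · rw [hrot e he _ (rho_subset_triU he hA), hrot e he A hA]
        · rw [comb_rho_outside hf, comb_rho_outside hf]
    obtain ⟨A', hA', hPA', hν, hA'b, hout⟩ := key
    rw [← hν]
    apply ih hS A' B hA' hB hPA' hPB
    intro f hfF hfS
    by_cases hfe : f ∈ tri e
    · rw [comb_mem_iff_ne hA'b hfe, comb_mem_iff_ne hb hfe]
    · rw [hout f hfe]
      apply hAB f hfF
      intro hmem
      unfold triU at hmem hfS
      rw [Finset.biUnion_insert, Finset.mem_union] at hmem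
      rcases hmem with h | h
      · exact hfe h
      · exact hfS h

theorem comb {k : ℕ} (F : Finset (Edge k)) (ν₁ ν₂ : Finset (Edge k) → ℝ)
    (h1sum : ∑ A ∈ (triU F).powerset, ν₁ A = 1) (h2sum : ∑ A ∈ (triU F).powerset, ν₂ A = 1)
    (h1pat : ∀ A, A ⊆ triU F → ¬ IsPat F A → ν₁ A = 0)
    (h2pat : ∀ A, A ⊆ triU F → ¬ IsPat F A → ν₂ A = 0)
    (h1rot : ∀ e ∈ F, ∀ A, A ⊆ triU F → ν₁ (rho e A) = ν₁ A)
    (h2rot : ∀ e ∈ F, ∀ A, A ⊆ triU F → ν₂ (rho e A) = ν₂ A) :
    ∀ A, A ⊆ triU F → ν₁ A = ν₂ A := by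
  classical
  intro A hA
  by_cases hP : IsPat F A
  · have hsplit : ∀ ν : Finset (Edge k) → ℝ, (∀ B, B ⊆ triU F → ¬ IsPat F B → ν B = 0) →
        (∀ e ∈ F, ∀ B, B ⊆ triU F → ν (rho e B) = ν B) →
        ∑ B ∈ (triU F).powerset, ν B
          = (((triU F).powerset.filter (fun B => IsPat F B)).card : ℝ) * ν A := by
      intro ν hpat hrot
      rw [← Finset.sum_filter_add_sum_filter_not (triU F).powerset (fun B => IsPat F B)]
      have h1 : ∑ B ∈ (triU F).powerset.filter (fun B => ¬ IsPat F B), ν B = 0 := by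
        apply Finset.sum_eq_zero
        intro B hB
        rw [Finset.mem_filter, Finset.mem_powerset] at hB
        exact hpat B hB.1 hB.2
      have h2 : ∑ B ∈ (triU F).powerset.filter (fun B => IsPat F B), ν B
          = ∑ _B ∈ (triU F).powerset.filter (fun B => IsPat F B), ν A := by
        apply Finset.sum_congr rfl
        intro B hB
        rw [Finset.mem_filter, Finset.mem_powerset] at hB
        exact comb_inv F ν hrot F (Finset.Subset.refl F) B A hB.1 hA hB.2 hP
          (fun f hf hnf => absurd hf hnf)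
      rw [h1, h2, Finset.sum_const, nsmul_eq_mul, add_zero]
    have e1 := hsplit ν₁ h1pat h1rot
    have e2 := hsplit ν₂ h2pat h2rot
    rw [h1sum] at e1
    rw [h2sum] at e2
    have hc : (((triU F).powerset.filter (fun B => IsPat F B)).card : ℝ) ≠ 0 := by
      intro h0
      rw [h0, zero_mul] at e1
      exact one_ne_zero e1
    exact mul_left_cancel₀ hc (e1.symm.trans e2)
  · rw [h1pat A hA hP, h2pat A hA hP]

end Vale.Agent.H38.Fusf
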