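import Vale.Agent.H38.Fusf.Word
import Vale.Agent.H38.Fusf.Basic

/-!
# P143 free products of Z_3, row FU-4 (Cut): the two triangle edges at a vertex form a cut

TASK FU-4: replace the placeholder, keep the statement exactly; helper lemmas with names starting
`cut_`.  Uses `word_fst_one`, `word_fst_of`, `word_fst` (Word.lean) and Basic.lean as black boxes.
Recipe.  `e₀ = (x, j)`.  Take `W := {h | (Word.equiv (x⁻¹ * h)).fstIdx = some j}`.
* `x ∉ W`: `x⁻¹ * x = 1`, `word_fst_one`.
* `x * gen j ∈ W`, `x * gen j * gen j ∈ W`: `x⁻¹ * (x * gen j) = gen j = of (ofAdd 1)`,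
  `x⁻¹ * (x * gen j * gen j) = of (ofAdd 2)` (`map_mul`), `word_fst_of`.
* Let `e = (g, i)` with exactly one end in `W`.
  If `g ∈ W`, `g * gen i ∉ W`: `word_fst (x⁻¹ * g) j _ i (ofAdd 1)` gives
  `x⁻¹ * g * gen i = 1`, so `x⁻¹ * g = (gen i)⁻¹ = of (ofAdd 2)` at index `i`, whose first index is
  `i`; hence `i = j` and `g = x * gen j * gen j` (`gen_cube`), `e = rot (rot e₀)`.
  If `g ∉ W`, `g * gen i ∈ W`: `word_fst (x⁻¹ * (g * gen i)) j _ i (ofAdd 2)` (`of (ofAdd 2) =
  (gen i)⁻¹`) gives `x⁻¹ * g = 1` (the other alternative says `g ∈ W`), so `g = x` and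
  `x⁻¹ * (g * gen i) = gen i` has first index `i = j`: `e = e₀`.
-/

open MeasureTheory

namespace Vale.Agent.H38.Fusf

theorem cut_gen_sq {k : ℕ} (i : Fin k) :
    gen i * gen i =
      Monoid.CoprodI.of (M := fun _ : Fin k => Multiplicative (ZMod 3)) (i := i)
        (Multiplicative.ofAdd (2 : ZMod 3)) := by
  unfold gen
  rw [← map_mul]
  rfl

theorem cut_gen_mul_two {k : ℕ} (i : Fin k) :
    gen i *
      Monoid.CoprodI.of (M := fun _ : Fin k => Multiplicative (ZMod 3)) (i := i)
        (Multiplicative.ofAdd (2 : ZMod 3)) = 1 := by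
  unfold gen
  rw [← map_mul]
  have h : (Multiplicative.ofAdd (1 : ZMod 3)) * (Multiplicative.ofAdd (2 : ZMod 3)) = 1 := by
    decide
  rw [h, map_one]

theorem cut_one_ne : (Multiplicative.ofAdd (1 : ZMod 3)) ≠ 1 := by decide

theorem cut_two_ne : (Multiplicative.ofAdd (2 : ZMod 3)) ≠ 1 := by decide

theorem cut {k : ℕ} (e₀ : Edge k) :
    ∃ W : Set (Gam k), e₀.1 ∉ W ∧ e₀.1 * gen e₀.2 ∈ W ∧ e₀.1 * gen e₀.2 * gen e₀.2 ∈ W ∧
      ∀ e : Edge k, ¬ (e.1 ∈ W ↔ e.1 * gen e.2 ∈ W) → e = e₀ ∨ e = rot (rot e₀) := by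
  obtain ⟨x, j⟩ := e₀
  refine ⟨{h | (Monoid.CoprodI.Word.equiv (x⁻¹ * h)).fstIdx = some j}, ?_, ?_, ?_, ?_⟩
  · show ¬ (Monoid.CoprodI.Word.equiv (x⁻¹ * x)).fstIdx = some j
    rw [inv_mul_cancel, word_fst_one]
    exact fun h => by cases h
  · show (Monoid.CoprodI.Word.equiv (x⁻¹ * (x * gen j))).fstIdx = some j
    rw [inv_mul_cancel_left]
    exact word_fst_of j _ cut_one_ne
  · show (Monoid.CoprodI.Word.equiv (x⁻¹ * (x * gen j * gen j))).fstIdx = some j
    rw [mul_assoc, inv_mul_cancel_left, cut_gen_sq]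
    exact word_fst_of j _ cut_two_ne
  · rintro ⟨g, i⟩ hne
    have hne' : ¬ ((Monoid.CoprodI.Word.equiv (x⁻¹ * g)).fstIdx = some j ↔
        (Monoid.CoprodI.Word.equiv (x⁻¹ * (g * gen i))).fstIdx = some j) := hne
    by_cases hg : (Monoid.CoprodI.Word.equiv (x⁻¹ * g)).fstIdx = some j
    · have hg2 : ¬ (Monoid.CoprodI.Word.equiv (x⁻¹ * (g * gen i))).fstIdx = some j :=
        fun h => hne' ⟨fun _ => h, fun _ => hg⟩
      have h1 := word_fst (x⁻¹ * g) j hg i (Multiplicative.ofAdd (1 : ZMod 3))
      have h1' : x⁻¹ * g * gen i = 1 := by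
        rcases h1 with h1 | h1
        · exact h1
        · exfalso
          apply hg2
          rw [← mul_assoc]
          exact h1
      -- `x⁻¹ * g = gen i * gen i`
      have h2 : x⁻¹ * g = gen i * gen i := by
        have h3 : x⁻¹ * g * gen i * (gen i * gen i) = gen i * gen i := by rw [h1', one_mul]
        have h4 : x⁻¹ * g * gen i * (gen i * gen i) = x⁻¹ * g * (gen i * gen i * gen i) := by
          simp only [mul_assoc]
        rw [h4, gen_cube, mul_one] at h3
        exact h3
      have h5 : (Monoid.CoprodI.Word.equiv (x⁻¹ * g)).fstIdx = some i := by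
        rw [h2, cut_gen_sq]
        exact word_fst_of i _ cut_two_ne
      have hij : i = j := by
        rw [hg] at h5
        exact (Option.some.inj h5).symm
      subst hij
      right
      have h6 : g = x * gen i * gen i := by
        have : x * (x⁻¹ * g) = x * (gen i * gen i) := by rw [h2]
        rw [mul_inv_cancel_left] at this
        rw [this, mul_assoc]
      show (g, i) = rot (rot (x, i))
      unfold rot
      simp only
      rw [h6]
    · have hg2 : (Monoid.CoprodI.Word.equiv (x⁻¹ * (g * gen i))).fstIdx = some j := by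
        by_contra h
        exact hne' ⟨fun h' => absurd h' hg, fun h' => absurd h' h⟩
      have h1 := word_fst (x⁻¹ * (g * gen i)) j hg2 i (Multiplicative.ofAdd (2 : ZMod 3))
      have hcancel : x⁻¹ * (g * gen i) *
          Monoid.CoprodI.of (M := fun _ : Fin k => Multiplicative (ZMod 3)) (i := i)
            (Multiplicative.ofAdd (2 : ZMod 3)) = x⁻¹ * g := by
        rw [mul_assoc, mul_assoc, cut_gen_mul_two, mul_one]
      rw [hcancel] at h1
      have h1' : x⁻¹ * g = 1 := by
        rcases h1 with h1 | h1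
        · exact h1
        · exact absurd h1 hg
      have hgx : g = x := by
        have : x * (x⁻¹ * g) = x * 1 := by rw [h1']
        rw [mul_inv_cancel_left, mul_one] at this
        exact this
      subst hgx
      have h5 : (Monoid.CoprodI.Word.equiv (g⁻¹ * (g * gen i))).fstIdx = some i := by
        rw [inv_mul_cancel_left]
        exact word_fst_of i _ cut_one_ne
      have hij : i = j := by
        rw [hg2] at h5
        exact (Option.some.inj h5).symm
      subst hij
      left
      rfl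

end Vale.Agent.H38.Fusf
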