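import Mathlib

/-!
# P143: the free uniform spanning forest on free products of cyclic groups of order three

Statement-level definitions.  `Gam k = Z_3 * ... * Z_3` (`k` free factors) and its Cayley graph
for the standard generators and their inverses: the edge ` (g, j)` joins `g` and `g * gen j`.
A finite subgraph is given by its finite set of edges (its vertices are the ends of its edges).
-/

namespace Vale.Agent.H38.Fusf

/-- The free product of `k` copies of the cyclic group of order three. -/
abbrev Gam (k : ℕ) : Type := Monoid.CoprodI (fun _ : Fin k => Multiplicative (ZMod 3))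

/-- The standard generator of the `j`-th free factor. -/
def gen {k : ℕ} (j : Fin k) : Gam k :=
  Monoid.CoprodI.of (M := fun _ : Fin k => Multiplicative (ZMod 3)) (i := j)
    (Multiplicative.ofAdd (1 : ZMod 3))

/-- The edges of the Cayley graph of `Gam k` for the generators `gen j` and their inverses:
the edge ` (g, j)` joins `g` and `g * gen j`. -/
abbrev Edge (k : ℕ) : Type := Gam k × Fin k

/-- `x` and `y` are joined by a chain of edges of `T` (each edge may be used in both
directions). -/
def Joined {k : ℕ} (T : Finset (Edge k)) (x y : Gam k) : Prop :=
  Relation.EqvGen (fun a b => ∃ e ∈ T, e.1 = a ∧ e.1 * gen e.2 = b) x y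

/-- `x` is a vertex of the finite subgraph with edge set `H`, that is an end of one of its
edges. -/
def IsVert {k : ℕ} (H : Finset (Edge k)) (x : Gam k) : Prop :=
  ∃ e ∈ H, x = e.1 ∨ x = e.1 * gen e.2

/-- The finite subgraph with edge set `H` is connected. -/
def EConn {k : ℕ} (H : Finset (Edge k)) : Prop :=
  ∀ x y, IsVert H x → IsVert H y → Joined H x y

/-- `T` is a spanning tree of the finite subgraph with edge set `H`: `T` consists of edges of `H`,
joins any two vertices of `H`, and no edge of `T` has its two ends joined by the other edges
of `T`. -/
def IsSpanTree {k : ℕ} (H T : Finset (Edge k)) : Prop :=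
  T ⊆ H ∧ (∀ x y, IsVert H x → IsVert H y → Joined T x y) ∧
    ∀ e ∈ T, ¬ Joined (T.erase e) e.1 (e.1 * gen e.2)

/-- The probability that the uniform spanning tree of the finite subgraph `H` contains, among the
edges of `F`, exactly those of `A`: the number of such spanning trees over the number of all
spanning trees of `H`. -/
noncomputable def ustProb {k : ℕ} (H F A : Finset (Edge k)) : ℝ :=
  (Nat.card {T : Finset (Edge k) // IsSpanTree H T ∧ ∀ e ∈ F, (e ∈ T ↔ e ∈ A)} : ℝ) /
    (Nat.card {T : Finset (Edge k) // IsSpanTree H T} : ℝ)

end Vale.Agent.H38.Fusf
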