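import Vale.Agent.H38.Fusf.Basic

/-!
# P143 free products of Z_3, row FU-20 (DelOne): exactly one edge of a triangle is deleted

TASK FU-20: replace the placeholder, keep the statement exactly; helper lemmas with names starting
`delone_`.  Uses Basic.lean as a black box.
Recipe.  `t := gen e.2`, `j := (e.2 : ℕ)`, `x0 = u e.1`, `x1 = u (e.1 * t)`, `x2 = u (e.1 * t * t)`,
`w_i = wv k x_i`, `s = dig j x0 + dig j x1 + dig j x2`, hypothesis `w0 ≠ w1`.
The three edges of `tri e` are `e`, `rot e`, `rot (rot e)` (different), with frames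
` (x0, x1, x2)`, ` (x1, x2, x0)`, ` (x2, x0, x1)` (`gen_cube`, `mul_assoc` for
`e.1 * t * t * t = e.1`), and `Phi k u f = false ↔ Del k j (frame of f)`.
Pure real and `ZMod 3` reasoning: because `w0 ≠ w1`, exactly one of `Win w0 w1 w2`, `Win w1 w2 w0`,
`Win w2 w0 w1` holds (`Win a b c := c < a ∧ b ≤ a`; case split on the order of `w0, w1, w2`,
`lt_trichotomy`, `linarith`), and `s` is `0`, `1` or `2`; so exactly one of
`Del k j x0 x1 x2`, `Del k j x1 x2 x0`, `Del k j x2 x0 x1` holds (the digit sums in the three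
frames are equal up to `add_comm`, `add_assoc`).  Then the filter is a singleton
(`Finset.card_eq_one`; `Finset.filter_insert`, `Finset.filter_singleton`).
-/

open MeasureTheory

namespace Vale.Agent.H38.Fusf

/-- exactly one of three values (not all equal) wins in cyclic order -/
theorem delone_win (a b c : ℝ) (h : a ≠ b) :
    (Win a b c ∧ ¬ Win b c a ∧ ¬ Win c a b) ∨ (¬ Win a b c ∧ Win b c a ∧ ¬ Win c a b) ∨
      (¬ Win a b c ∧ ¬ Win b c a ∧ Win c a b) := by
  unfold Win
  rcases lt_trichotomy a b with hab | hab | hab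
  · rcases le_or_gt c b with hcb | hcb
    · right
      left
      refine ⟨?_, ⟨hab, hcb⟩, ?_⟩
      · rintro ⟨h1, h2⟩
        linarith
      · rintro ⟨h1, h2⟩
        linarith
    · right
      right
      refine ⟨?_, ?_, ⟨hcb, by linarith⟩⟩
      · rintro ⟨h1, h2⟩
        linarith
      · rintro ⟨h1, h2⟩
        linarith
  · exact absurd hab h
  · rcases lt_or_ge c a with hca | hca
    · left
      refine ⟨⟨hca, hab.le⟩, ?_, ?_⟩
      · rintro ⟨h1, h2⟩
        linarith
      · rintro ⟨h1, h2⟩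
        linarith
    · right
      right
      refine ⟨?_, ?_, ⟨by linarith, hca⟩⟩
      · rintro ⟨h1, h2⟩
        linarith
      · rintro ⟨h1, h2⟩
        linarith

theorem delone_zmod (s : ZMod 3) : s = 0 ∨ s = 1 ∨ s = 2 := by
  revert s
  decide

/-- exactly one of the three frames of a triangle satisfies the deletion rule -/
theorem delone_del (k j : ℕ) (x0 x1 x2 : ℝ) (h : wv k x0 ≠ wv k x1) :
    (Del k j x0 x1 x2 ∧ ¬ Del k j x1 x2 x0 ∧ ¬ Del k j x2 x0 x1) ∨
      (¬ Del k j x0 x1 x2 ∧ Del k j x1 x2 x0 ∧ ¬ Del k j x2 x0 x1) ∨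
      (¬ Del k j x0 x1 x2 ∧ ¬ Del k j x1 x2 x0 ∧ Del k j x2 x0 x1) := by
  unfold Del
  have e1 : dig j x1 + dig j x2 + dig j x0 = dig j x0 + dig j x1 + dig j x2 := by ring
  have e2 : dig j x2 + dig j x0 + dig j x1 = dig j x0 + dig j x1 + dig j x2 := by ring
  rw [e1, e2]
  generalize dig j x0 + dig j x1 + dig j x2 = s
  have h01 : (0 : ZMod 3) ≠ 1 := by decide
  have h02 : (0 : ZMod 3) ≠ 2 := by decide
  have h10 : (1 : ZMod 3) ≠ 0 := by decide
  have h12 : (1 : ZMod 3) ≠ 2 := by decide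
  have h20 : (2 : ZMod 3) ≠ 0 := by decide
  have h21 : (2 : ZMod 3) ≠ 1 := by decide
  rcases delone_win (wv k x0) (wv k x1) (wv k x2) h with ⟨hA, hB, hC⟩ | ⟨hA, hB, hC⟩ | ⟨hA, hB, hC⟩ <;>
    rcases delone_zmod s with rfl | rfl | rfl <;>
    simp [hA, hB, hC, h01, h02, h10, h12, h20, h21]

theorem del_one (k : ℕ) (u : Gam k → ℝ) (e : Edge k)
    (h : wv k (u e.1) ≠ wv k (u (e.1 * gen e.2))) :
    ((tri e).filter (fun f => Phi k u f = false)).card = 1 := by
  have hc : e.1 * gen e.2 * gen e.2 * gen e.2 = e.1 := by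
    rw [mul_assoc, mul_assoc, ← mul_assoc (gen e.2) (gen e.2) (gen e.2), gen_cube, mul_one]
  have p0 : Phi k u e = false ↔
      Del k e.2 (u e.1) (u (e.1 * gen e.2)) (u (e.1 * gen e.2 * gen e.2)) := by
    unfold Phi
    rw [decide_eq_false_iff_not, not_not]
  have p1 : Phi k u (rot e) = false ↔
      Del k e.2 (u (e.1 * gen e.2)) (u (e.1 * gen e.2 * gen e.2)) (u e.1) := by
    unfold Phi
    rw [decide_eq_false_iff_not, not_not]
    show Del k e.2 (u (e.1 * gen e.2)) (u (e.1 * gen e.2 * gen e.2))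
      (u (e.1 * gen e.2 * gen e.2 * gen e.2)) ↔ _
    rw [hc]
  have p2 : Phi k u (rot (rot e)) = false ↔
      Del k e.2 (u (e.1 * gen e.2 * gen e.2)) (u e.1) (u (e.1 * gen e.2)) := by
    unfold Phi
    rw [decide_eq_false_iff_not, not_not]
    show Del k e.2 (u (e.1 * gen e.2 * gen e.2)) (u (e.1 * gen e.2 * gen e.2 * gen e.2))
      (u (e.1 * gen e.2 * gen e.2 * gen e.2 * gen e.2)) ↔ _
    rw [hc]
  rw [Finset.card_eq_one]
  rcases delone_del k e.2 (u e.1) (u (e.1 * gen e.2)) (u (e.1 * gen e.2 * gen e.2)) h with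
    ⟨h0, h1, h2⟩ | ⟨h0, h1, h2⟩ | ⟨h0, h1, h2⟩
  · refine ⟨e, ?_⟩
    ext f
    simp only [Finset.mem_filter, Finset.mem_singleton, mem_tri_iff]
    constructor
    · rintro ⟨hf | hf | hf, hphi⟩
      · exact hf
      · rw [hf] at hphi
        exact absurd (p1.mp hphi) h1
      · rw [hf] at hphi
        exact absurd (p2.mp hphi) h2
    · intro hf
      rw [hf]
      exact ⟨Or.inl rfl, p0.mpr h0⟩
  · refine ⟨rot e, ?_⟩
    ext f
    simp only [Finset.mem_filter, Finset.mem_singleton, mem_tri_iff]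
    constructor
    · rintro ⟨hf | hf | hf, hphi⟩
      · rw [hf] at hphi
        exact absurd (p0.mp hphi) h0
      · exact hf
      · rw [hf] at hphi
        exact absurd (p2.mp hphi) h2
    · intro hf
      rw [hf]
      exact ⟨Or.inr (Or.inl rfl), p1.mpr h1⟩
  · refine ⟨rot (rot e), ?_⟩
    ext f
    simp only [Finset.mem_filter, Finset.mem_singleton, mem_tri_iff]
    constructor
    · rintro ⟨hf | hf | hf, hphi⟩
      · rw [hf] at hphi
        exact absurd (p0.mp hphi) h0
      · rw [hf] at hphi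
        exact absurd (p1.mp hphi) h1
      · exact hf
    · intro hf
      rw [hf]
      exact ⟨Or.inr (Or.inr rfl), p2.mpr h2⟩

end Vale.Agent.H38.Fusf
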