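import Vale.Agent.H38.Fusf.PhiBasic

/-!
# P143 free products of Z_3, row FU-22 (PhiMarg): marginals and total mass of the law of the factor

TASK FU-22: replace every placeholder, keep the statements exactly; helper lemmas with names
starting `phimarg_`.  Uses `phi_cyl_measurable` as a black box.
Recipe.  `labelLaw k` is a probability measure (`Measure.infinitePi` with the instance
`unif_isProbabilityMeasure` of Inner.lean: `inferInstance` after `unfold labelLaw`).
`phi_marg`: `C F A := {u | ∀ e ∈ F, (Phi k u e = true ↔ e ∈ A)}`.  For `F ⊆ D`: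
`C F A = ⋃ A' ∈ D.powerset.filter (fun A' => ∀ e ∈ F, (e ∈ A' ↔ e ∈ A)), C D A'`
(for `u ∈ C F A` take `A' := D.filter (fun e => Phi k u e = true)`), the sets `C D A'`, `A' ⊆ D`,
are pairwise disjoint (two subsets of `D` with the same members are equal) and measurable
(`phi_cyl_measurable`): `measure_biUnion_finset`, then `ENNReal.toReal_sum` (all terms finite).
`phi_total`: `C ∅ A = Set.univ`, `measure_univ`, `ENNReal.toReal_one`.
-/

open MeasureTheory

namespace Vale.Agent.H38.Fusf

/-- The cylinder over `F` is the union of the cylinders over `D` of the compatible traces. -/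
theorem phimarg_cyl_eq (k : ℕ) (F D A : Finset (Edge k)) (hFD : F ⊆ D) :
    {u : Gam k → ℝ | ∀ e ∈ F, (Phi k u e = true ↔ e ∈ A)} =
      ⋃ A' ∈ D.powerset.filter (fun A' => ∀ e ∈ F, (e ∈ A' ↔ e ∈ A)),
        {u : Gam k → ℝ | ∀ e ∈ D, (Phi k u e = true ↔ e ∈ A')} := by
  ext u
  rw [Set.mem_iUnion₂]
  constructor
  · intro hu
    have hu' : ∀ e ∈ F, (Phi k u e = true ↔ e ∈ A) := hu
    refine ⟨D.filter (fun e => Phi k u e = true), ?_, ?_⟩
    · rw [Finset.mem_filter, Finset.mem_powerset]
      refine ⟨Finset.filter_subset _ _, ?_⟩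
      intro e he
      rw [Finset.mem_filter, ← hu' e he]
      exact ⟨fun h => h.2, fun h => ⟨hFD he, h⟩⟩
    · intro e he
      rw [Finset.mem_filter]
      exact ⟨fun h => ⟨he, h⟩, fun h => h.2⟩
  · rintro ⟨A', hA', hu⟩
    rw [Finset.mem_filter, Finset.mem_powerset] at hA'
    have hu' : ∀ e ∈ D, (Phi k u e = true ↔ e ∈ A') := hu
    intro e he
    rw [hu' e (hFD he)]
    exact hA'.2 e he

/-- The cylinders over `D` of distinct traces on `D` are disjoint. -/
theorem phimarg_disjoint (k : ℕ) (D : Finset (Edge k)) (S : Finset (Finset (Edge k)))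
    (hS : ∀ A' ∈ S, A' ⊆ D) :
    Set.PairwiseDisjoint (↑S : Set (Finset (Edge k)))
      (fun A' => {u : Gam k → ℝ | ∀ e ∈ D, (Phi k u e = true ↔ e ∈ A')}) := by
  intro A1 h1 A2 h2 hne
  rw [Function.onFun, Set.disjoint_left]
  intro u hu1 hu2
  have hu1' : ∀ e ∈ D, (Phi k u e = true ↔ e ∈ A1) := hu1
  have hu2' : ∀ e ∈ D, (Phi k u e = true ↔ e ∈ A2) := hu2
  apply hne
  ext e
  constructor
  · intro he
    have heD := hS A1 h1 he
    exact (hu2' e heD).1 ((hu1' e heD).2 he)
  · intro he
    have heD := hS A2 h2 he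
    exact (hu1' e heD).1 ((hu2' e heD).2 he)

theorem phi_marg (k : ℕ) (F D A : Finset (Edge k)) (hFD : F ⊆ D) :
    phiProb k F A =
      ∑ A' ∈ D.powerset.filter (fun A' => ∀ e ∈ F, (e ∈ A' ↔ e ∈ A)), phiProb k D A' := by
  have hprob : IsProbabilityMeasure (labelLaw k) := by
    unfold labelLaw
    infer_instance
  unfold phiProb
  rw [phimarg_cyl_eq k F D A hFD, measure_biUnion_finset
    (phimarg_disjoint k D _ (fun A' hA' => Finset.mem_powerset.1 (Finset.mem_filter.1 hA').1))
    (fun A' _ => phi_cyl_measurable k D A'),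
    ENNReal.toReal_sum (fun A' _ => measure_ne_top _ _)]

theorem phi_total (k : ℕ) (A : Finset (Edge k)) : phiProb k ∅ A = 1 := by
  have hprob : IsProbabilityMeasure (labelLaw k) := by
    unfold labelLaw
    infer_instance
  unfold phiProb
  have h : {u : Gam k → ℝ | ∀ e ∈ (∅ : Finset (Edge k)), (Phi k u e = true ↔ e ∈ A)} =
      Set.univ := by
    ext u
    simp
  rw [h, measure_univ, ENNReal.toReal_one]

end Vale.Agent.H38.Fusf
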