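import Vale.Agent.H38.Fusf.Inner

/-!
# P143 free products of Z_3, row FU-13 (PhiBasic): the factor map is equivariant and measurable

TASK FU-13 (proved below, statements kept exactly); helper lemmas with names
starting `phibasic_`.
Recipe.  `phi_equivariant`: unfold `Phi`; the three labels are `u (γ⁻¹ * (γ * e.1))`,
`u (γ⁻¹ * (γ * e.1 * gen e.2))`, `u (γ⁻¹ * (γ * e.1 * gen e.2 * gen e.2))`: `mul_assoc`,
`inv_mul_cancel_left`.
`phi_measurable`: `measurable_pi_iff`; for a fixed edge the map `u ↦ Phi k u e` into `Bool` is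
measurable because `{u | Del k j (u a) (u b) (u c)}` is a measurable set (`measurable_to_bool` or
`measurable_decide`-style: a `Bool`-valued map is measurable iff the preimage of `{true}` is
measurable): `dig j` is measurable (`Int.measurable_floor`/`measurable_floor` composed with a
continuous map, then a map from the countable discrete `ℤ`), `wv k` is measurable
(`measurable_fract`), coordinates are measurable (`measurable_pi_apply`), `Win` is given by
`measurableSet_lt`, `measurableSet_le`, equalities in `ZMod 3` by `measurableSet_eq_fun` or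
`MeasurableSet.of_discrete` after composing; finite unions and intersections.
`phi_cyl_measurable`: a finite intersection over `e ∈ F` (`MeasurableSet.biInter` /
`Finset.measurableSet_biInter`) of the sets `{u | Phi k u e = true ↔ e ∈ A}`, each the preimage
of a subset of `Bool` under the measurable map `u ↦ Phi k u e`.
-/

open MeasureTheory

namespace Vale.Agent.H38.Fusf

lemma phibasic_wv (k : ℕ) : Measurable (wv k) := by
  unfold wv
  exact (measurable_const.mul measurable_id).fract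

lemma phibasic_win {Ω : Type*} [MeasurableSpace Ω] (g0 g1 g2 : Ω → ℝ) (h0 : Measurable g0)
    (h1 : Measurable g1) (h2 : Measurable g2) :
    MeasurableSet {ω | Win (g0 ω) (g1 ω) (g2 ω)} := by
  unfold Win
  exact (measurableSet_lt h2 h0).inter (measurableSet_le h1 h0)

lemma phibasic_dig_sum {Ω : Type*} [MeasurableSpace Ω] (j : ℕ) (c : ZMod 3) (f0 f1 f2 : Ω → ℝ)
    (h0 : Measurable f0) (h1 : Measurable f1) (h2 : Measurable f2) :
    MeasurableSet {ω | dig j (f0 ω) + dig j (f1 ω) + dig j (f2 ω) = c} := by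
  have hfl : ∀ f : Ω → ℝ, Measurable f →
      Measurable (fun ω => ⌊(3 : ℝ) ^ (j + 1) * f ω⌋) :=
    fun f hf => (measurable_const.mul hf).floor
  have hg : Measurable (fun ω => (⌊(3 : ℝ) ^ (j + 1) * f0 ω⌋,
      ⌊(3 : ℝ) ^ (j + 1) * f1 ω⌋, ⌊(3 : ℝ) ^ (j + 1) * f2 ω⌋)) :=
    (hfl f0 h0).prodMk ((hfl f1 h1).prodMk (hfl f2 h2))
  have hS : MeasurableSet {p : ℤ × ℤ × ℤ |
      ((p.1 : ℤ) : ZMod 3) + ((p.2.1 : ℤ) : ZMod 3) + ((p.2.2 : ℤ) : ZMod 3) = c} :=
    MeasurableSet.of_discrete
  unfold dig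
  exact hg hS

lemma phibasic_del {Ω : Type*} [MeasurableSpace Ω] (k j : ℕ) (f0 f1 f2 : Ω → ℝ)
    (h0 : Measurable f0) (h1 : Measurable f1) (h2 : Measurable f2) :
    MeasurableSet {ω | Del k j (f0 ω) (f1 ω) (f2 ω)} := by
  have w0 : Measurable (fun ω => wv k (f0 ω)) := (phibasic_wv k).comp h0
  have w1 : Measurable (fun ω => wv k (f1 ω)) := (phibasic_wv k).comp h1
  have w2 : Measurable (fun ω => wv k (f2 ω)) := (phibasic_wv k).comp h2
  unfold Del
  exact ((phibasic_win _ _ _ w0 w1 w2).inter (phibasic_dig_sum j 0 f0 f1 f2 h0 h1 h2)).union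
    (((phibasic_win _ _ _ w1 w2 w0).inter (phibasic_dig_sum j 2 f0 f1 f2 h0 h1 h2)).union
      ((phibasic_win _ _ _ w2 w0 w1).inter (phibasic_dig_sum j 1 f0 f1 f2 h0 h1 h2)))

theorem phi_equivariant (k : ℕ) (γ : Gam k) (u : Gam k → ℝ) (e : Edge k) :
    Phi k (fun g => u (γ⁻¹ * g)) (γ * e.1, e.2) = Phi k u e := by
  have h1 : γ⁻¹ * (γ * e.1) = e.1 := inv_mul_cancel_left γ e.1
  have h2 : γ⁻¹ * (γ * e.1 * gen e.2) = e.1 * gen e.2 := by
    rw [mul_assoc, inv_mul_cancel_left]
  have h3 : γ⁻¹ * (γ * e.1 * gen e.2 * gen e.2) = e.1 * gen e.2 * gen e.2 := by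
    rw [mul_assoc, mul_assoc, inv_mul_cancel_left, mul_assoc]
  unfold Phi
  apply decide_eq_decide.mpr
  dsimp only
  rw [h1, h2, h3]

theorem phi_measurable (k : ℕ) : Measurable (Phi k) := by
  rw [measurable_pi_iff]
  intro e
  apply measurable_to_bool
  have hD := phibasic_del k (e.2 : ℕ) (fun u : Gam k → ℝ => u e.1)
    (fun u => u (e.1 * gen e.2)) (fun u => u (e.1 * gen e.2 * gen e.2))
    (measurable_pi_apply _) (measurable_pi_apply _) (measurable_pi_apply _)
  have hE : (fun u : Gam k → ℝ => Phi k u e) ⁻¹' {true}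
      = {u | Del k (e.2 : ℕ) (u e.1) (u (e.1 * gen e.2)) (u (e.1 * gen e.2 * gen e.2))}ᶜ := by
    ext u
    simp [Phi]
  rw [hE]
  exact hD.compl

theorem phi_cyl_measurable (k : ℕ) (F A : Finset (Edge k)) :
    MeasurableSet {u : Gam k → ℝ | ∀ e ∈ F, (Phi k u e = true ↔ e ∈ A)} := by
  have hE : {u : Gam k → ℝ | ∀ e ∈ F, (Phi k u e = true ↔ e ∈ A)}
      = ⋂ e ∈ F, {u | Phi k u e = true ↔ e ∈ A} := by
    ext u
    simp
  rw [hE]
  refine Finset.measurableSet_biInter F (fun e _ => ?_)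
  have hm : Measurable (fun u : Gam k → ℝ => Phi k u e) :=
    (measurable_pi_iff.mp (phi_measurable k)) e
  exact hm (MeasurableSet.of_discrete (s := {b : Bool | b = true ↔ e ∈ A}))

end Vale.Agent.H38.Fusf
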