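import Vale.Agent.H38.Fusf.Inner

/-!
# P143 free products of Z_3, row FU-19 (Ties): two labels have different remainders almost surely

TASK FU-19: replace the placeholder, keep the statement exactly; helper lemmas with names starting
`ties_`.
Recipe.  `labelLaw k = Measure.infinitePi (fun _ => μ₀)`, `μ₀ = volume.restrict (Icc 0 1)`.
The law of `u ↦ (u a, u b)` is `μ₀.prod μ₀` for `a ≠ b`
(`MeasureTheory.Measure.infinitePi_map_eval_prod` in Mathlib/Probability/Independence/InfinitePi.lean,
or `iIndepFun_infinitePi` + `indepFun_iff_map_prod_eq_prod_map_map`).  The set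
`S := {p : ℝ × ℝ | wv k p.1 = wv k p.2}` is measurable (`measurable_fract`,
`measurableSet_eq_fun`) and `μ₀.prod μ₀ S = 0` by `Measure.measure_prod_null`: for every `y` the
section `{x | Int.fract (3^k * x) = Int.fract (3^k * y)}` is countable (it is contained in the
range of `n ↦ y + n / 3^k`, `n : ℤ`: `Int.fract_eq_fract`), so it is a null set
(`Set.Countable.measure_zero`; `μ₀ ≤ volume` / `Measure.restrict_le_self`, or
`Measure.restrict_apply` + monotonicity).
-/

open MeasureTheory

namespace Vale.Agent.H38.Fusf

theorem ties_wv_measurable (k : ℕ) : Measurable (wv k) := by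
  unfold wv
  exact measurable_fract.comp (measurable_const.mul measurable_id)

theorem ties_section_null (k : ℕ) (x : ℝ) :
    ((volume : Measure ℝ).restrict (Set.Icc (0 : ℝ) 1)) {y : ℝ | wv k x = wv k y} = 0 := by
  have hsub : {y : ℝ | wv k x = wv k y} ⊆ Set.range (fun z : ℤ => x - (z : ℝ) / (3 : ℝ) ^ k) := by
    intro y hy
    have hy' : Int.fract ((3 : ℝ) ^ k * x) = Int.fract ((3 : ℝ) ^ k * y) := hy
    rw [Int.fract_eq_fract] at hy'
    obtain ⟨z, hz⟩ := hy'
    refine ⟨z, ?_⟩
    have h3 : (3 : ℝ) ^ k ≠ 0 := by positivity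
    show x - (z : ℝ) / (3 : ℝ) ^ k = y
    rw [← hz]
    field_simp
    ring
  exact measure_mono_null hsub ((Set.countable_range _).measure_zero _)

theorem ties_null (k : ℕ) (a b : Gam k) (hab : a ≠ b) :
    labelLaw k {u | wv k (u a) = wv k (u b)} = 0 := by
  have hS : MeasurableSet {p : ℝ × ℝ | wv k p.1 = wv k p.2} :=
    measurableSet_eq_fun ((ties_wv_measurable k).comp measurable_fst)
      ((ties_wv_measurable k).comp measurable_snd)
  have hmap : (labelLaw k).map (fun u : Gam k → ℝ => (u a, u b)) =
      ((volume : Measure ℝ).restrict (Set.Icc (0 : ℝ) 1)).prod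
        ((volume : Measure ℝ).restrict (Set.Icc (0 : ℝ) 1)) := by
    unfold labelLaw
    exact Measure.infinitePi_map_eval_prod hab
  have hmeas : Measurable (fun u : Gam k → ℝ => (u a, u b)) :=
    (measurable_pi_apply a).prodMk (measurable_pi_apply b)
  have h1 : labelLaw k {u | wv k (u a) = wv k (u b)} =
      (labelLaw k).map (fun u : Gam k → ℝ => (u a, u b)) {p : ℝ × ℝ | wv k p.1 = wv k p.2} := by
    rw [Measure.map_apply hmeas hS]
    rfl
  rw [h1, hmap, Measure.measure_prod_null hS]
  exact Filter.Eventually.of_forall (fun x => ties_section_null k x)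

end Vale.Agent.H38.Fusf
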