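import Vale.Agent.H38.Fusf.DelOne
import Vale.Agent.H38.Fusf.Ties
import Vale.Agent.H38.Fusf.PhiBasic

/-!
# P143 free products of Z_3, row FU-21 (PhiPat): the law of the factor lives on patterns

TASK FU-21: replace the placeholder, keep the statement exactly; helper lemmas with names starting
`phipat_`.  Uses `del_one`, `ties_null`, Basic.lean as black boxes.
Recipe.  Show `{u | ∀ f ∈ triU F, (Phi k u f = true ↔ f ∈ A)} ⊆
⋃ e ∈ F, {u | wv k (u e.1) = wv k (u (e.1 * gen e.2))}`; the right side is a finite union of null
sets (`ties_null`, `e.1 ≠ e.1 * gen e.2` from `gen_ne_one`; `measure_biUnion_null_iff`), so the left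
side is null (`measure_mono_null`) and `phiProb = 0` (`ENNReal.toReal_zero`).
For the inclusion: `¬ IsPat F A` gives `e ∈ F` with ` (tri e \ A).card ≠ 1`.  If `u` is in the left
set then, since `tri e ⊆ triU F` (`tri_subset_triU`), `tri e \ A = (tri e).filter (fun f => Phi k u
f = false)` (`Finset.ext`; `Bool` case split), so by `del_one` (contrapositive)
`wv k (u e.1) = wv k (u (e.1 * gen e.2))`.
-/

open MeasureTheory

namespace Vale.Agent.H38.Fusf

theorem phi_pat {k : ℕ} (F A : Finset (Edge k)) (hA : A ⊆ triU F) (h : ¬ IsPat F A) :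
    phiProb k (triU F) A = 0 := by
  unfold IsPat at h
  push Not at h
  obtain ⟨e, heF, hcard⟩ := h
  have hne : e.1 ≠ e.1 * gen e.2 := by
    intro heq
    apply gen_ne_one e.2
    have h1 : e.1 * gen e.2 = e.1 * 1 := by
      rw [mul_one]
      exact heq.symm
    exact mul_left_cancel h1
  have hsub : {u : Gam k → ℝ | ∀ f ∈ triU F, (Phi k u f = true ↔ f ∈ A)} ⊆
      {u : Gam k → ℝ | wv k (u e.1) = wv k (u (e.1 * gen e.2))} := by
    intro u hu
    by_contra hne'
    have h1 := del_one k u e hne'
    have h2 : tri e \ A = (tri e).filter (fun f => Phi k u f = false) := by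
      ext f
      simp only [Finset.mem_sdiff, Finset.mem_filter]
      constructor
      · rintro ⟨hf, hfA⟩
        refine ⟨hf, ?_⟩
        have h3 := hu f (tri_subset_triU heF hf)
        cases hP : Phi k u f
        · rfl
        · exact absurd (h3.1 hP) hfA
      · rintro ⟨hf, hP⟩
        refine ⟨hf, fun hfA => ?_⟩
        have h3 := (hu f (tri_subset_triU heF hf)).2 hfA
        rw [hP] at h3
        exact Bool.false_ne_true h3
    rw [h2] at hcard
    exact hcard h1
  unfold phiProb
  rw [measure_mono_null hsub (ties_null k _ _ hne), ENNReal.toReal_zero]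

end Vale.Agent.H38.Fusf
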