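import Vale.Agent.H38.Fusf.PhiRot
import Vale.Agent.H38.Fusf.PhiPat
import Vale.Agent.H38.Fusf.PhiMarg

/-!
# P143 free products of Z_3, row FB-3 (EdgeProb): every edge is kept with probability two thirds

TASK FB-3: replace the placeholder, keep the statement exactly; helper lemmas with names starting
`edgeprob_`.  Uses `phi_rot`, `phi_pat`, `phi_marg`, `phi_total`, Pat.lean, Basic.lean as black
boxes.
Recipe.  `triU {e} = tri e` (`Finset.singleton_biUnion`), `tri e = {e, rot e, rot (rot e)}` with
three different edges (`rot_ne`, `rot_rot_ne`, `rot_injective`, `card_tri`).  For `f ∈ tri e` put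
`p f := phiProb k (tri e) ((tri e).erase f)`.
* A subset `A ⊆ tri e` has `IsPat {e} A` (that is ` (tri e \ A).card = 1`) iff `A = (tri e).erase f`
  for some `f ∈ tri e` (`Finset.card_eq_one`).
* `rho e ((tri e).erase f) = (tri e).erase (rot f)` for `f ∈ tri e` (`mem_rho_iff`,
  `rot_rot_rot`, `rot_mem_tri_iff`), so `phi_rot {e} e _ _ _` gives `p (rot f) = p f`:
  `p e = p (rot e) = p (rot (rot e))`.
* `phi_marg k ∅ (tri e) ∅` and `phi_total`: `1 = ∑ A ∈ (tri e).powerset, phiProb k (tri e) A`
  (the filter is everything); by `phi_pat` only the three patterns contribute, so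
  `p e + p (rot e) + p (rot (rot e)) = 1` and `p e = 1 / 3`.
* `phi_marg k {e} (tri e) {e}`: `phiProb k {e} {e}` is the sum over the `A ⊆ tri e` with `e ∈ A`;
  the patterns among them are ` (tri e).erase (rot e)` and ` (tri e).erase (rot (rot e))`: `2 / 3`.
(The powerset of the three-element set may be handled by `Finset.sum_subset` to the image of
`fun f => (tri e).erase f`, or by writing `tri e` as an explicit `insert` and `Finset.powerset_insert`.)
-/

open MeasureTheory

namespace Vale.Agent.H38.Fusf

theorem edgeprob_triU {k : ℕ} (e : Edge k) : triU ({e} : Finset (Edge k)) = tri e := by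
  unfold triU
  exact Finset.singleton_biUnion

theorem edgeprob_erase_inj {k : ℕ} {e f f' : Edge k} (hf' : f' ∈ tri e)
    (h : (tri e).erase f = (tri e).erase f') : f = f' := by
  by_contra hne
  have h1 : f' ∈ (tri e).erase f := Finset.mem_erase.mpr ⟨fun h' => hne h'.symm, hf'⟩
  rw [h] at h1
  exact (Finset.notMem_erase f' (tri e)) h1

theorem edgeprob_pat {k : ℕ} {e : Edge k} {A : Finset (Edge k)} (hA : A ⊆ tri e)
    (h : IsPat {e} A) : ∃ f ∈ tri e, A = (tri e).erase f := by
  have h1 : (tri e \ A).card = 1 := h e (Finset.mem_singleton_self e)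
  obtain ⟨f, hf⟩ := Finset.card_eq_one.mp h1
  have hfm : f ∈ tri e \ A := by rw [hf]; exact Finset.mem_singleton_self f
  refine ⟨f, (Finset.mem_sdiff.mp hfm).1, ?_⟩
  ext x
  rw [Finset.mem_erase]
  constructor
  · intro hx
    refine ⟨?_, hA hx⟩
    rintro rfl
    exact (Finset.mem_sdiff.mp hfm).2 hx
  · rintro ⟨hxf, hx⟩
    by_contra hxA
    have h2 : x ∈ tri e \ A := Finset.mem_sdiff.mpr ⟨hx, hxA⟩
    rw [hf, Finset.mem_singleton] at h2
    exact hxf h2

theorem edgeprob_sum (k : ℕ) (e : Edge k) (P : Finset (Edge k) → Prop) [DecidablePred P] :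
    ∑ A ∈ (tri e).powerset.filter P, phiProb k (tri e) A =
      ∑ f ∈ (tri e).filter (fun f => P ((tri e).erase f)),
        phiProb k (tri e) ((tri e).erase f) := by
  classical
  rw [← Finset.sum_image (f := fun A => phiProb k (tri e) A) (g := fun f => (tri e).erase f)]
  · symm
    apply Finset.sum_subset
    · intro A hA
      obtain ⟨f, hf, rfl⟩ := Finset.mem_image.mp hA
      rw [Finset.mem_filter] at hf ⊢
      exact ⟨Finset.mem_powerset.mpr (Finset.erase_subset _ _), hf.2⟩
    · intro A hA hnot
      rw [Finset.mem_filter, Finset.mem_powerset] at hA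
      have hnp : ¬ IsPat {e} A := by
        intro hp
        obtain ⟨f, hf, rfl⟩ := edgeprob_pat hA.1 hp
        exact hnot (Finset.mem_image.mpr ⟨f, Finset.mem_filter.mpr ⟨hf, hA.2⟩, rfl⟩)
      have h1 := phi_pat {e} A (by rw [edgeprob_triU]; exact hA.1) hnp
      rw [edgeprob_triU] at h1
      exact h1
  · intro f hf f' hf' h
    exact edgeprob_erase_inj (Finset.mem_filter.mp hf').1 h

theorem edgeprob_rho {k : ℕ} (e f : Edge k) :
    rho e ((tri e).erase f) = (tri e).erase (rot f) := by
  ext x
  simp only [mem_rho_iff, Finset.mem_erase]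
  constructor
  · rintro (⟨h1, _, h2⟩ | ⟨h1, h2, _⟩)
    · exact absurd h2 h1
    · refine ⟨?_, h1⟩
      rintro rfl
      exact h2 (rot_rot_rot f)
  · rintro ⟨h1, h2⟩
    refine Or.inr ⟨h2, ?_, rot_mem_tri_iff.mpr (rot_mem_tri_iff.mpr h2)⟩
    intro h3
    apply h1
    rw [← h3, rot_rot_rot]

theorem edgeprob_rot (k : ℕ) (e f : Edge k) :
    phiProb k (tri e) ((tri e).erase (rot f)) = phiProb k (tri e) ((tri e).erase f) := by
  have h := phi_rot {e} e (Finset.mem_singleton_self e) ((tri e).erase f)
    (by rw [edgeprob_triU]; exact Finset.erase_subset _ _)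
  rw [edgeprob_triU, edgeprob_rho] at h
  exact h

theorem phi_edge (k : ℕ) (e : Edge k) : phiProb k {e} {e} = 2 / 3 := by
  classical
  have h01 : e ≠ rot e := fun h => rot_ne e h.symm
  have h02 : e ≠ rot (rot e) := fun h => rot_rot_ne e h.symm
  have h12 : rot e ≠ rot (rot e) := fun h => rot_ne (rot e) h.symm
  have hb := edgeprob_rot k e e
  have hc := edgeprob_rot k e (rot e)
  -- total mass
  have htot := phi_marg k ∅ (tri e) ∅ (Finset.empty_subset _)
  rw [phi_total, edgeprob_sum, Finset.filter_true_of_mem (by simp)] at htot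
  have htri : tri e = insert e (insert (rot e) {rot (rot e)}) := rfl
  rw [htri, Finset.sum_insert (by simp [h01, h02]), Finset.sum_insert (by simp [h12]),
    Finset.sum_singleton, ← htri, hb, hc, hb] at htot
  -- the edge
  have hedge := phi_marg k {e} (tri e) {e}
    (Finset.singleton_subset_iff.mpr (mem_tri_iff.mpr (Or.inl rfl)))
  rw [edgeprob_sum] at hedge
  have hfilt : (tri e).filter (fun f => ∀ x ∈ ({e} : Finset (Edge k)),
      (x ∈ (tri e).erase f ↔ x ∈ ({e} : Finset (Edge k)))) = {rot e, rot (rot e)} := by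
    ext f
    simp only [Finset.mem_filter, Finset.mem_singleton, forall_eq, Finset.mem_erase, iff_true,
      Finset.mem_insert, mem_tri_iff]
    constructor
    · rintro ⟨hf | hf | hf, h1, _⟩
      · exact absurd hf.symm h1
      · exact Or.inl hf
      · exact Or.inr hf
    · rintro (hf | hf)
      · refine ⟨Or.inr (Or.inl hf), ?_, ?_⟩
        · rw [hf]; exact h01
        · simp
      · refine ⟨Or.inr (Or.inr hf), ?_, ?_⟩
        · rw [hf]; exact h02
        · simp
  rw [hfilt, Finset.sum_pair h12, hb, hc, hb] at hedge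
  rw [hedge]
  linarith

end Vale.Agent.H38.Fusf
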