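import Vale.Agent.H38.Fusf.Defs

/-!
# P143, free products of `Z_3`: internal definitions (not used by the final statement)

`rot`, `tri`, `rho`: the rotation of an edge inside its triangle, the triangle of an edge, the
rotation of the part of an edge set inside one triangle.  `dig`, `wv`, `Win`, `Del`, `Phi`: the
factor map.  `shift`, `sig`: the digit shift of one label.  Paper proof: thread P143, post 3009.
-/

open MeasureTheory

namespace Vale.Agent.H38.Fusf

/-- Rotation of an edge inside its triangle: ` (g, j) ↦ (g * gen j, j)`. -/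
def rot {k : ℕ} (e : Edge k) : Edge k := (e.1 * gen e.2, e.2)

/-- The triangle through an edge. -/
def tri {k : ℕ} (e : Edge k) : Finset (Edge k) := {e, rot e, rot (rot e)}

/-- Rotate the part of `A` inside the triangle of `e`. -/
def rho {k : ℕ} (e : Edge k) (A : Finset (Edge k)) : Finset (Edge k) :=
  (A \ tri e) ∪ (A ∩ tri e).image rot

/-- The union of the triangles of the edges of `F`. -/
def triU {k : ℕ} (F : Finset (Edge k)) : Finset (Edge k) := F.biUnion tri

/-- `A` misses exactly one edge of the triangle of every edge of `F`. -/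
def IsPat {k : ℕ} (F A : Finset (Edge k)) : Prop := ∀ e ∈ F, (tri e \ A).card = 1

/-- The uniform law on `[0, 1]` is a probability measure. -/
instance unif_isProbabilityMeasure :
    IsProbabilityMeasure ((volume : Measure ℝ).restrict (Set.Icc (0 : ℝ) 1)) :=
  ⟨by simp⟩

/-- The law of independent uniform labels on the vertices. -/
noncomputable def labelLaw (k : ℕ) : Measure (Gam k → ℝ) :=
  Measure.infinitePi (fun _ : Gam k => (volume : Measure ℝ).restrict (Set.Icc (0 : ℝ) 1))

/-- The ternary digit number `j` of a label. -/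
noncomputable def dig (j : ℕ) (x : ℝ) : ZMod 3 := ((⌊(3 : ℝ) ^ (j + 1) * x⌋ : ℤ) : ZMod 3)

/-- What is left of a label after its first `k` ternary digits. -/
noncomputable def wv (k : ℕ) (x : ℝ) : ℝ := Int.fract ((3 : ℝ) ^ k * x)

/-- The first of three values in cyclic order wins. -/
def Win (y0 y1 y2 : ℝ) : Prop := y2 < y0 ∧ y1 ≤ y0

/-- The deletion rule for an edge of type `j`, in the frame (source, target, third vertex). -/
def Del (k j : ℕ) (x0 x1 x2 : ℝ) : Prop :=
  (Win (wv k x0) (wv k x1) (wv k x2) ∧ dig j x0 + dig j x1 + dig j x2 = 0) ∨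
  (Win (wv k x1) (wv k x2) (wv k x0) ∧ dig j x0 + dig j x1 + dig j x2 = 2) ∨
  (Win (wv k x2) (wv k x0) (wv k x1) ∧ dig j x0 + dig j x1 + dig j x2 = 1)

open Classical in
/-- The factor map: the edge ` (g, j)` is kept unless the deletion rule holds in its frame. -/
noncomputable def Phi (k : ℕ) (u : Gam k → ℝ) (e : Edge k) : Bool :=
  decide (¬ Del k (e.2 : ℕ) (u e.1) (u (e.1 * gen e.2)) (u (e.1 * gen e.2 * gen e.2)))

/-- The shift of the ternary digit number `j`. -/
noncomputable def shift (j : ℕ) (x : ℝ) : ℝ :=
  if dig j x = 2 then x - 2 / (3 : ℝ) ^ (j + 1) else x + 1 / (3 : ℝ) ^ (j + 1)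

/-- The digit shift applied to the label of the vertex `v`. -/
noncomputable def sig {k : ℕ} (v : Gam k) (j : ℕ) (u : Gam k → ℝ) : Gam k → ℝ :=
  fun g => if g = v then shift j (u g) else u g

/-- The probability that `Phi` of the random labels contains, among the edges of `F`, exactly
those of `A`. -/
noncomputable def phiProb (k : ℕ) (F A : Finset (Edge k)) : ℝ :=
  ((labelLaw k) {u | ∀ e ∈ F, (Phi k u e = true ↔ e ∈ A)}).toReal

end Vale.Agent.H38.Fusf
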