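import Vale.Agent.H38.Fusf.Cut

/-!
# P143 free products of Z_3, row FU-5 (Join): chains of edges

TASK FU-5: replace every placeholder, keep the statements exactly; helper lemmas with names
starting `join_`.  Uses `cut` (Cut.lean) as a black box.
Recipe.  `Joined T` is `Relation.EqvGen` of the edge relation: `EqvGen.refl`, `.symm`, `.trans`,
`.rel`.  `joined_of_forall`: induction on the `EqvGen` proof (`rel` case: the edge `e ∈ T` with
`e.1 = a`, `e.1 * gen e.2 = b` gives `Joined T' a b` by the hypothesis).  `joined_mono` from it and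
`joined_of_mem`.
`sep`: take `W` from `cut e₀`.  Every `e ∈ T` has `e.1 ∈ W ↔ e.1 * gen e.2 ∈ W` (otherwise
`e = e₀` or `e = rot (rot e₀)`, both not in `T`); by induction on `EqvGen`,
`Joined T p q → (p ∈ W ↔ q ∈ W)`; but `e₀.1 ∉ W` while `e₀.1 * gen e₀.2 ∈ W` and
`e₀.1 * gen e₀.2 * gen e₀.2 ∈ W`.
-/

open MeasureTheory

namespace Vale.Agent.H38.Fusf

theorem joined_refl {k : ℕ} (T : Finset (Edge k)) (x : Gam k) : Joined T x x := by
  exact Relation.EqvGen.refl x

theorem joined_symm {k : ℕ} {T : Finset (Edge k)} {x y : Gam k} (h : Joined T x y) :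
    Joined T y x := by
  exact Relation.EqvGen.symm x y h

theorem joined_trans {k : ℕ} {T : Finset (Edge k)} {x y z : Gam k} (h1 : Joined T x y)
    (h2 : Joined T y z) : Joined T x z := by
  exact Relation.EqvGen.trans x y z h1 h2

theorem joined_of_mem {k : ℕ} {T : Finset (Edge k)} {e : Edge k} (he : e ∈ T) :
    Joined T e.1 (e.1 * gen e.2) := by
  exact Relation.EqvGen.rel _ _ ⟨e, he, rfl, rfl⟩

theorem joined_of_forall {k : ℕ} {T T' : Finset (Edge k)}
    (h : ∀ e ∈ T, Joined T' e.1 (e.1 * gen e.2)) {x y : Gam k} (hxy : Joined T x y) :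
    Joined T' x y := by
  have hxy' : Relation.EqvGen (fun a b => ∃ e ∈ T, e.1 = a ∧ e.1 * gen e.2 = b) x y := hxy
  clear hxy
  induction hxy' with
  | rel a b hab =>
    obtain ⟨e, he, rfl, rfl⟩ := hab
    exact h e he
  | refl a => exact joined_refl T' a
  | symm a b _ ih => exact joined_symm ih
  | trans a b c _ _ ih1 ih2 => exact joined_trans ih1 ih2

theorem joined_mono {k : ℕ} {T T' : Finset (Edge k)} (h : T ⊆ T') {x y : Gam k}
    (hxy : Joined T x y) : Joined T' x y := by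
  exact joined_of_forall (fun _ he => joined_of_mem (h he)) hxy

theorem join_iff_of_cut {k : ℕ} {T : Finset (Edge k)} (W : Set (Gam k))
    (hW : ∀ e ∈ T, (e.1 ∈ W ↔ e.1 * gen e.2 ∈ W)) {p q : Gam k} (hpq : Joined T p q) :
    (p ∈ W ↔ q ∈ W) := by
  have hpq' : Relation.EqvGen (fun a b => ∃ e ∈ T, e.1 = a ∧ e.1 * gen e.2 = b) p q := hpq
  clear hpq
  induction hpq' with
  | rel a b hab =>
    obtain ⟨e, he, rfl, rfl⟩ := hab
    exact hW e he
  | refl a => exact Iff.rfl
  | symm a b _ ih => exact ih.symm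
  | trans a b c _ _ ih1 ih2 => exact ih1.trans ih2

theorem sep {k : ℕ} {T : Finset (Edge k)} (e₀ : Edge k) (h1 : e₀ ∉ T)
    (h2 : rot (rot e₀) ∉ T) :
    ¬ Joined T e₀.1 (e₀.1 * gen e₀.2) ∧ ¬ Joined T e₀.1 (e₀.1 * gen e₀.2 * gen e₀.2) := by
  obtain ⟨W, hW0, hW1, hW2, hW⟩ := cut e₀
  have key : ∀ e ∈ T, (e.1 ∈ W ↔ e.1 * gen e.2 ∈ W) := by
    intro e he
    by_contra hne
    rcases hW e hne with h | h
    · exact h1 (h ▸ he)
    · exact h2 (h ▸ he)
  exact ⟨fun hj => hW0 ((join_iff_of_cut W key hj).mpr hW1),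
    fun hj => hW0 ((join_iff_of_cut W key hj).mpr hW2)⟩

end Vale.Agent.H38.Fusf
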