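import Vale.Agent.H38.Fusf.Basic

/-!
# P143 free products of Z_3, row FU-6 (Pat): the rotation of an edge set inside one triangle

TASK FU-6: replace every placeholder, keep the statements exactly; helper lemmas with names
starting `pat_`.  Uses Basic.lean as a black box.
Recipe.  `rho e A = (A \ tri e) ∪ (A ∩ tri e).image rot`.
`mem_rho_iff`: `f ∈ image rot (A ∩ tri e)` iff `f = rot f'` with `f' ∈ A`, `f' ∈ tri e`; then
`f' = rot (rot f)` (`rot_rot_rot`) and `f ∈ tri e ↔ f' ∈ tri e` (`rot_mem_tri_iff`).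
`rho_rho_rho`: `Finset.ext` and `mem_rho_iff` three times (`rot_rot_rot`, `rot_mem_tri_iff`).
`rho_subset_triU`: `A \ tri e ⊆ A`, and the image lies in `tri e ⊆ triU F` (`tri_subset_triU`).
`isPat_rho`: for `e' ∈ F` show ` (tri e' \ rho e A).card = (tri e' \ A).card`.  If `tri e'` meets
`tri e` then `tri e' = tri e` (`tri_eq_of_mem` twice) and `f ↦ rot (rot f)` is a bijection from
`tri e \ rho e A` onto `tri e \ A` (`Finset.card_bij` / `Finset.card_image_of_injective` with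
`rot_injective`); otherwise the two sets are equal (`mem_rho_iff`, first alternative).
-/

open MeasureTheory

namespace Vale.Agent.H38.Fusf

theorem mem_rho_iff {k : ℕ} {e f : Edge k} {A : Finset (Edge k)} :
    f ∈ rho e A ↔ (f ∉ tri e ∧ f ∈ A) ∨ (f ∈ tri e ∧ rot (rot f) ∈ A) := by
  unfold rho
  simp only [Finset.mem_union, Finset.mem_sdiff, Finset.mem_image, Finset.mem_inter]
  constructor
  · rintro (⟨h1, h2⟩ | ⟨a, ⟨ha, hat⟩, rfl⟩)
    · exact Or.inl ⟨h2, h1⟩
    · refine Or.inr ⟨rot_mem_tri_iff.mpr hat, ?_⟩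
      rw [rot_rot_rot]
      exact ha
  · rintro (⟨h1, h2⟩ | ⟨h1, h2⟩)
    · exact Or.inl ⟨h2, h1⟩
    · exact Or.inr ⟨rot (rot f), ⟨h2, rot_mem_tri_iff.mpr (rot_mem_tri_iff.mpr h1)⟩,
        rot_rot_rot f⟩

theorem pat_mem_rho_of_mem {k : ℕ} {e f : Edge k} {A : Finset (Edge k)} (h : f ∈ tri e) :
    f ∈ rho e A ↔ rot (rot f) ∈ A := by
  rw [mem_rho_iff]
  constructor
  · rintro (⟨h1, _⟩ | ⟨_, h2⟩)
    · exact absurd h h1
    · exact h2
  · intro h2
    exact Or.inr ⟨h, h2⟩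

theorem pat_mem_rho_of_not_mem {k : ℕ} {e f : Edge k} {A : Finset (Edge k)} (h : f ∉ tri e) :
    f ∈ rho e A ↔ f ∈ A := by
  rw [mem_rho_iff]
  constructor
  · rintro (⟨_, h2⟩ | ⟨h1, _⟩)
    · exact h2
    · exact absurd h1 h
  · intro h2
    exact Or.inl ⟨h, h2⟩

theorem rho_rho_rho {k : ℕ} (e : Edge k) (A : Finset (Edge k)) :
    rho e (rho e (rho e A)) = A := by
  ext f
  by_cases h : f ∈ tri e
  · have h2 : rot (rot f) ∈ tri e := rot_mem_tri_iff.mpr (rot_mem_tri_iff.mpr h)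
    have h4 : rot (rot (rot (rot f))) ∈ tri e := rot_mem_tri_iff.mpr (rot_mem_tri_iff.mpr h2)
    rw [pat_mem_rho_of_mem h, pat_mem_rho_of_mem h2, pat_mem_rho_of_mem h4, rot_rot_rot,
      rot_rot_rot]
  · rw [pat_mem_rho_of_not_mem h, pat_mem_rho_of_not_mem h, pat_mem_rho_of_not_mem h]

theorem rho_subset_triU {k : ℕ} {F : Finset (Edge k)} {e : Edge k} (he : e ∈ F)
    {A : Finset (Edge k)} (hA : A ⊆ triU F) : rho e A ⊆ triU F := by
  intro f hf
  rw [mem_rho_iff] at hf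
  rcases hf with ⟨_, h⟩ | ⟨h, _⟩
  · exact hA h
  · exact tri_subset_triU he h

theorem pat_card_same {k : ℕ} (e : Edge k) (A : Finset (Edge k)) :
    (tri e \ rho e A).card = (tri e \ A).card := by
  refine Finset.card_bij (fun g _ => rot (rot g)) ?_ ?_ ?_
  · intro g hg
    rw [Finset.mem_sdiff] at hg ⊢
    refine ⟨rot_mem_tri_iff.mpr (rot_mem_tri_iff.mpr hg.1), ?_⟩
    intro h
    exact hg.2 ((pat_mem_rho_of_mem hg.1).mpr h)
  · intro g1 _ g2 _ h
    exact rot_injective (rot_injective h)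
  · intro g hg
    rw [Finset.mem_sdiff] at hg
    have h1 : rot g ∈ tri e := rot_mem_tri_iff.mpr hg.1
    refine ⟨rot g, ?_, rot_rot_rot g⟩
    rw [Finset.mem_sdiff]
    refine ⟨h1, ?_⟩
    intro h
    have h3 := (pat_mem_rho_of_mem h1).mp h
    rw [rot_rot_rot] at h3
    exact hg.2 h3

theorem pat_card_eq {k : ℕ} (e e' : Edge k) (A : Finset (Edge k)) :
    (tri e' \ rho e A).card = (tri e' \ A).card := by
  by_cases hm : ∃ f, f ∈ tri e' ∧ f ∈ tri e
  · obtain ⟨f, hf', hf⟩ := hm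
    have h1 : tri e' = tri e := by
      rw [← tri_eq_of_mem hf', tri_eq_of_mem hf]
    rw [h1]
    exact pat_card_same e A
  · have h2 : tri e' \ rho e A = tri e' \ A := by
      ext g
      simp only [Finset.mem_sdiff]
      constructor
      · rintro ⟨hg, hn⟩
        have hne : g ∉ tri e := fun h => hm ⟨g, hg, h⟩
        exact ⟨hg, fun h => hn ((pat_mem_rho_of_not_mem hne).mpr h)⟩
      · rintro ⟨hg, hn⟩
        have hne : g ∉ tri e := fun h => hm ⟨g, hg, h⟩
        exact ⟨hg, fun h => hn ((pat_mem_rho_of_not_mem hne).mp h)⟩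
    rw [h2]

theorem isPat_rho {k : ℕ} (F : Finset (Edge k)) (e : Edge k) (A : Finset (Edge k)) :
    IsPat F (rho e A) ↔ IsPat F A := by
  unfold IsPat
  constructor
  · intro h e' he'
    rw [← pat_card_eq e e' A]
    exact h e' he'
  · intro h e' he'
    rw [pat_card_eq e e' A]
    exact h e' he'

end Vale.Agent.H38.Fusf
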