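import Vale.Agent.H38.Fusf.ShiftMP

/-!
# P143 free products of Z_3, row FU-16 (Sig): shifting one label preserves the law of the labels

TASK FU-16: replace the placeholder, keep the statement exactly; helper lemmas with names starting
`sig_`.  Uses `shift_measurePreserving`, `measurable_shift` as black boxes.
Recipe.  `sig v j u = fun g => f g (u g)` with `f g := if g = v then shift j else id`
(`funext`, `split_ifs`).  `Measure.infinitePi_map_pi` (Mathlib/Probability/ProductMeasure.lean):
` (infinitePi μ).map (fun x i => f i (x i)) = infinitePi (fun i => (μ i).map (f i))`, and
` (μ i).map (f i) = μ i` for every `i` (`shift_measurePreserving j` resp. `Measure.map_id`).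
Measurability of `sig v j`: `measurable_pi_iff`, each coordinate is `f g ∘ eval g`.
The instance `unif_isProbabilityMeasure` (Inner.lean) is the probability instance needed by
`Measure.infinitePi`.
-/

open MeasureTheory

namespace Vale.Agent.H38.Fusf

theorem sig_measurePreserving {k : ℕ} (v : Gam k) (j : ℕ) :
    MeasurePreserving (sig v j) (labelLaw k) (labelLaw k) := by
  classical
  have hf : ∀ g : Gam k, Measurable (fun x : ℝ => if g = v then shift j x else x) := by
    intro g
    by_cases h : g = v
    · simp only [h, if_true]
      exact measurable_shift j
    · simp only [h, if_false]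
      exact measurable_id
  have hsig : sig v j
      = fun (u : Gam k → ℝ) (g : Gam k) => (fun x : ℝ => if g = v then shift j x else x) (u g) := by
    funext u g
    unfold sig
    by_cases h : g = v
    · simp [h]
    · simp [h]
  have hmap : ∀ g : Gam k,
      ((volume : Measure ℝ).restrict (Set.Icc (0 : ℝ) 1)).map
          (fun x : ℝ => if g = v then shift j x else x)
        = (volume : Measure ℝ).restrict (Set.Icc (0 : ℝ) 1) := by
    intro g
    by_cases h : g = v
    · simp only [h, if_true]
      exact (shift_measurePreserving j).map_eq
    · simp only [h, if_false]
      exact Measure.map_id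
  refine ⟨?_, ?_⟩
  · rw [hsig]
    exact measurable_pi_lambda _ (fun g => (hf g).comp (measurable_pi_apply g))
  · unfold labelLaw
    rw [hsig, Measure.infinitePi_map_pi
      (μ := fun _ : Gam k => (volume : Measure ℝ).restrict (Set.Icc (0 : ℝ) 1)) hf]
    congr 1
    funext g
    exact hmap g

end Vale.Agent.H38.Fusf
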