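import Vale.Agent.H38.Fusf.SigPhi
import Vale.Agent.H38.Fusf.Sig
import Vale.Agent.H38.Fusf.PhiBasic
import Vale.Agent.H38.Fusf.Pat

/-!
# P143 free products of Z_3, row FU-18 (PhiRot): the law of the factor is rotation invariant

TASK FU-18: replace the placeholder, keep the statement exactly; helper lemmas with names starting
`phirot_`.  Uses `phi_sig`, `sig_measurePreserving`, `phi_cyl_measurable`, Pat.lean, Basic.lean as
black boxes.
Recipe.  `D := triU F`, `σ := sig e.1 e.2`.  Set identity:
`{u | ∀ f ∈ D, (Phi k u f = true ↔ f ∈ A)} = σ ⁻¹' {u | ∀ f ∈ D, (Phi k u f = true ↔ f ∈ rho e A)}`.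
Indeed by `phi_sig` and `mem_rho_iff`, for `f ∈ D \ tri e` the two conditions on `f` coincide, and
for `f ∈ tri e` the condition on the right is `Phi k u (rot (rot f)) = true ↔ rot (rot f) ∈ A`;
`f ↦ rot (rot f)` is a bijection of `tri e ⊆ D` (`rot_mem_tri_iff`, `rot_rot_rot`), so both sides
say: the condition holds on `D \ tri e` and on `tri e`.
Then `MeasurePreserving.measure_preimage` (`sig_measurePreserving`, `phi_cyl_measurable`,
`.nullMeasurableSet`) gives equality of the measures, hence of `phiProb`.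
-/

open MeasureTheory

namespace Vale.Agent.H38.Fusf

theorem phirot_cond {k : ℕ} (F : Finset (Edge k)) (e : Edge k) (he : e ∈ F) (A : Finset (Edge k))
    (u : Gam k → ℝ) :
    (∀ f ∈ triU F, (Phi k (sig e.1 (e.2 : ℕ) u) f = true ↔ f ∈ rho e A)) ↔
      (∀ f ∈ triU F, (Phi k u f = true ↔ f ∈ A)) := by
  have hsub : tri e ⊆ triU F := tri_subset_triU he
  have key : ∀ f, (Phi k (sig e.1 (e.2 : ℕ) u) f = true ↔ f ∈ rho e A) ↔
      (if f ∈ tri e then (Phi k u (rot (rot f)) = true ↔ rot (rot f) ∈ A)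
        else (Phi k u f = true ↔ f ∈ A)) := by
    intro f
    rw [phi_sig, mem_rho_iff]
    by_cases hf : f ∈ tri e
    · simp [hf]
    · simp [hf]
  constructor
  · intro h f hfD
    by_cases hf : f ∈ tri e
    · have hf' : rot f ∈ tri e := rot_mem_tri_iff.2 hf
      have h1 := (key (rot f)).1 (h (rot f) (hsub hf'))
      rw [if_pos hf', rot_rot_rot] at h1
      exact h1
    · have h1 := (key f).1 (h f hfD)
      rw [if_neg hf] at h1
      exact h1
  · intro h f hfD
    rw [key f]
    by_cases hf : f ∈ tri e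
    · rw [if_pos hf]
      have hf2 : rot (rot f) ∈ tri e := rot_mem_tri_iff.2 (rot_mem_tri_iff.2 hf)
      exact h _ (hsub hf2)
    · rw [if_neg hf]
      exact h f hfD

theorem phi_rot {k : ℕ} (F : Finset (Edge k)) (e : Edge k) (he : e ∈ F) (A : Finset (Edge k))
    (hA : A ⊆ triU F) : phiProb k (triU F) (rho e A) = phiProb k (triU F) A := by
  unfold phiProb
  have hset : {u : Gam k → ℝ | ∀ f ∈ triU F, (Phi k u f = true ↔ f ∈ A)} =
      sig e.1 (e.2 : ℕ) ⁻¹' {u | ∀ f ∈ triU F, (Phi k u f = true ↔ f ∈ rho e A)} := by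
    ext u
    exact (phirot_cond F e he A u).symm
  rw [hset, (sig_measurePreserving e.1 (e.2 : ℕ)).measure_preimage
    (phi_cyl_measurable k (triU F) (rho e A)).nullMeasurableSet]

end Vale.Agent.H38.Fusf
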