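import Vale.Agent.H38.Fusf.SpanEx

/-!
# P143 free products of Z_3, row FU-11 (UstMarg): marginals and total mass of the tree law

TASK FU-11 (proved by helper40, backup seat; statements exactly as in the stub); helper lemmas
with names starting `ustmarg_`.  Uses `span_exists` as a black box.
Recipe.  All subtypes are finite: a spanning tree of `H` is a subset of `H`
(`Finite.of_injective` into `H.powerset`, or `Set.Finite.subset (Finset.finite_toSet H.powerset)`).
`ust_marg`: both sides have the same denominator; for the numerators use the bijection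
`{T // IsSpanTree H T ∧ ∀ e ∈ F, (e ∈ T ↔ e ∈ A)} ≃
 Σ A' : {A' // A' ∈ D.powerset.filter ...}, {T // IsSpanTree H T ∧ ∀ e ∈ D, (e ∈ T ↔ e ∈ A')}`,
`T ↦ (T ∩ D, T)` (`A' = T ∩ D` is the only subset of `D` with `∀ e ∈ D, (e ∈ T ↔ e ∈ A')`), then
`Nat.card_sigma` / `Fintype.card_sigma`, `Finset.sum_div`, `Nat.cast_sum`.  (Equivalently: write the
numerator as the cardinality of a filter of `H.powerset` and use `Finset.card_eq_sum_card_fiberwise`
for the map `T ↦ T ∩ D`.)
`ust_total`: for `F = ∅` the extra condition is empty, the type `{T // IsSpanTree H T}` is finite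
and nonempty (`span_exists hH`), so the quotient is `1` (`Nat.card_pos`, `div_self`).
-/

open MeasureTheory

namespace Vale.Agent.H38.Fusf

open Classical in
theorem ustmarg_card {k : ℕ} (H : Finset (Edge k)) (Q : Finset (Edge k) → Prop) :
    Nat.card {T : Finset (Edge k) // IsSpanTree H T ∧ Q T} =
      (H.powerset.filter (fun T => IsSpanTree H T ∧ Q T)).card := by
  apply Nat.subtype_card
  intro T
  simp only [Finset.mem_filter, Finset.mem_powerset]
  exact ⟨fun h => h.2, fun h => ⟨h.1.1, h⟩⟩

theorem ustmarg_inter {k : ℕ} (D A' T : Finset (Edge k)) (hA : A' ⊆ D) :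
    T ∩ D = A' ↔ ∀ e ∈ D, (e ∈ T ↔ e ∈ A') := by
  constructor
  · intro h e he
    rw [← h, Finset.mem_inter]
    exact ⟨fun h1 => ⟨h1, he⟩, fun h1 => h1.1⟩
  · intro h
    ext e
    rw [Finset.mem_inter]
    constructor
    · rintro ⟨h1, h2⟩
      exact (h e h2).mp h1
    · intro h1
      exact ⟨(h e (hA h1)).mpr h1, hA h1⟩

theorem ust_marg {k : ℕ} (H F D A : Finset (Edge k)) (hFD : F ⊆ D) :
    ustProb H F A =
      ∑ A' ∈ D.powerset.filter (fun A' => ∀ e ∈ F, (e ∈ A' ↔ e ∈ A)), ustProb H D A' := by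
  classical
  unfold ustProb
  rw [← Finset.sum_div]
  congr 1
  rw [ustmarg_card, ← Nat.cast_sum]
  congr 1
  rw [Finset.card_eq_sum_card_fiberwise (f := fun T => T ∩ D)
    (t := D.powerset.filter (fun A' => ∀ e ∈ F, (e ∈ A' ↔ e ∈ A)))]
  · apply Finset.sum_congr rfl
    intro A' hA'
    rw [Finset.mem_filter, Finset.mem_powerset] at hA'
    rw [ustmarg_card]
    congr 1
    ext T
    simp only [Finset.mem_filter, Finset.mem_powerset]
    rw [ustmarg_inter D A' T hA'.1]
    constructor
    · rintro ⟨⟨h1, h2, _⟩, h4⟩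
      exact ⟨h1, h2, h4⟩
    · rintro ⟨h1, h2, h4⟩
      refine ⟨⟨h1, h2, ?_⟩, h4⟩
      intro e he
      rw [h4 e (hFD he)]
      exact hA'.2 e he
  · intro T hT
    have hT' := hT
    simp only [Finset.coe_filter, Finset.mem_powerset, Set.mem_ofPred_eq] at hT' ⊢
    refine ⟨Finset.inter_subset_right, ?_⟩
    intro e he
    rw [Finset.mem_inter]
    constructor
    · rintro ⟨h1, _⟩
      exact (hT'.2.2 e he).mp h1
    · intro h1
      exact ⟨(hT'.2.2 e he).mpr h1, hFD he⟩

theorem ust_total {k : ℕ} {H : Finset (Edge k)} (hH : EConn H) (A : Finset (Edge k)) :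
    ustProb H ∅ A = 1 := by
  classical
  unfold ustProb
  have h1 : Nat.card {T : Finset (Edge k) // IsSpanTree H T ∧ ∀ e ∈ (∅ : Finset (Edge k)),
      (e ∈ T ↔ e ∈ A)} = Nat.card {T : Finset (Edge k) // IsSpanTree H T} := by
    apply Nat.card_congr
    exact Equiv.subtypeEquivRight (fun T => by simp)
  rw [h1]
  have h2 : Nat.card {T : Finset (Edge k) // IsSpanTree H T} ≠ 0 := by
    have h3 : Nat.card {T : Finset (Edge k) // IsSpanTree H T} =
        (H.powerset.filter (fun T => IsSpanTree H T)).card := by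
      apply Nat.subtype_card
      intro T
      simp only [Finset.mem_filter, Finset.mem_powerset]
      exact ⟨fun h => h.2, fun h => ⟨h.1, h⟩⟩
    rw [h3]
    obtain ⟨T, hT⟩ := span_exists hH
    exact Finset.card_ne_zero.mpr ⟨T, by
      simp only [Finset.mem_filter, Finset.mem_powerset]
      exact ⟨hT.1, hT⟩⟩
  exact div_self (Nat.cast_ne_zero.mpr h2)

end Vale.Agent.H38.Fusf
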