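import Vale.Agent.H38.Fusf.SpanRho

/-!
# P143 free products of Z_3, row FU-12 (UstRot): the tree law lives on patterns and is rotation invariant

TASK FU-12: replace every placeholder, keep the statements exactly; helper lemmas with names
starting `ustrot_`.  Uses `span_one`, `span_rho`, Pat.lean, Basic.lean as black boxes.
Recipe.  `ust_pat`: the numerator type is empty: if `T` is a spanning tree of `H` with
`∀ f ∈ triU F, (f ∈ T ↔ f ∈ A)`, then for `e ∈ F` (`tri e ⊆ triU F ⊆ H`):
`tri e \ A = tri e \ T` has one element (`span_one`), so `IsPat F A`.  (`Nat.card_of_isEmpty`.)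
`ust_rot`: same denominator; the numerators are equal by `Nat.card_congr` with the bijection
`T ↦ rho e T` from `{T // IsSpanTree H T ∧ ∀ f ∈ triU F, (f ∈ T ↔ f ∈ A)}` to the same with
`rho e A`, inverse `T ↦ rho e (rho e T)` (`rho_rho_rho`).  It maps spanning trees to spanning
trees (`span_rho`, `tri e ⊆ triU F ⊆ H`), and `∀ f ∈ triU F, (f ∈ T ↔ f ∈ A)` implies
`∀ f ∈ triU F, (f ∈ rho e T ↔ f ∈ rho e A)` by `mem_rho_iff` (if `f ∈ tri e` then
`rot (rot f) ∈ tri e ⊆ triU F`); apply this three times for the inverse direction.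
-/

open MeasureTheory

namespace Vale.Agent.H38.Fusf

theorem ustrot_step {k : ℕ} {F : Finset (Edge k)} (e : Edge k) (he : e ∈ F)
    {T A : Finset (Edge k)} (h : ∀ f ∈ triU F, (f ∈ T ↔ f ∈ A)) :
    ∀ f ∈ triU F, (f ∈ rho e T ↔ f ∈ rho e A) := by
  intro f hf
  rw [mem_rho_iff, mem_rho_iff]
  by_cases hfe : f ∈ tri e
  · have h2 : rot (rot f) ∈ tri e := rot_mem_tri_iff.mpr (rot_mem_tri_iff.mpr hfe)
    have h3 : rot (rot f) ∈ triU F := tri_subset_triU he h2
    simp [hfe, h _ h3]
  · simp [hfe, h _ hf]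

theorem ust_pat {k : ℕ} {H F : Finset (Edge k)} (hD : triU F ⊆ H) (A : Finset (Edge k))
    (hA : A ⊆ triU F) (h : ¬ IsPat F A) : ustProb H (triU F) A = 0 := by
  unfold ustProb
  have hemp : IsEmpty {T : Finset (Edge k) //
      IsSpanTree H T ∧ ∀ e ∈ triU F, (e ∈ T ↔ e ∈ A)} := by
    constructor
    rintro ⟨T, hT, hTA⟩
    apply h
    intro e he
    have hsub : tri e ⊆ triU F := tri_subset_triU he
    have h1 := span_one hT e (hsub.trans hD)
    have h2 : tri e \ A = tri e \ T := by
      ext f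
      simp only [Finset.mem_sdiff]
      constructor
      · rintro ⟨hf, hfA⟩
        exact ⟨hf, fun hfT => hfA ((hTA f (hsub hf)).mp hfT)⟩
      · rintro ⟨hf, hfT⟩
        exact ⟨hf, fun hfA => hfT ((hTA f (hsub hf)).mpr hfA)⟩
    rw [h2]
    exact h1
  rw [Nat.card_of_isEmpty]
  simp

theorem ust_rot {k : ℕ} {H F : Finset (Edge k)} (hD : triU F ⊆ H) (e : Edge k) (he : e ∈ F)
    (A : Finset (Edge k)) (hA : A ⊆ triU F) :
    ustProb H (triU F) (rho e A) = ustProb H (triU F) A := by
  unfold ustProb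
  have hsub : tri e ⊆ H := (tri_subset_triU he).trans hD
  have hcard : Nat.card {T : Finset (Edge k) //
      IsSpanTree H T ∧ ∀ f ∈ triU F, (f ∈ T ↔ f ∈ rho e A)}
      = Nat.card {T : Finset (Edge k) //
      IsSpanTree H T ∧ ∀ f ∈ triU F, (f ∈ T ↔ f ∈ A)} := by
    apply Nat.card_congr
    refine
      { toFun := fun T => ⟨rho e (rho e T.1), span_rho (span_rho T.2.1 e hsub) e hsub, ?_⟩
        invFun := fun T => ⟨rho e T.1, span_rho T.2.1 e hsub, ustrot_step e he T.2.2⟩
        left_inv := ?_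
        right_inv := ?_ }
    · have h3 := ustrot_step e he (ustrot_step e he T.2.2)
      rwa [rho_rho_rho] at h3
    · intro T
      apply Subtype.ext
      exact rho_rho_rho e T.1
    · intro T
      apply Subtype.ext
      exact rho_rho_rho e T.1
  rw [hcard]

end Vale.Agent.H38.Fusf
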