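import Vale.Agent.H38.Fusf.Simple
import Vale.Agent.H38.Fusf.Comb
import Vale.Agent.H38.Fusf.UstMarg
import Vale.Agent.H38.Fusf.UstRot
import Vale.Agent.H38.Fusf.PhiRot
import Vale.Agent.H38.Fusf.PhiPat
import Vale.Agent.H38.Fusf.PhiMarg

/-!
# P143 free products of Z_3: assembly

`main_eq`: as soon as the finite connected subgraph `H` contains the triangles of the edges of
`F`, the cylinder probabilities of the uniform spanning tree of `H` on `F` are those of the factor
`Phi`.  `main`: the free uniform spanning forest of the Cayley graph of `Gam k` is a factor of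
independent uniform labels (the limit along every exhaustion is reached after finitely many steps).
-/

open MeasureTheory

namespace Vale.Agent.H38.Fusf

theorem main_eq {k : ℕ} (H F A : Finset (Edge k)) (hH : EConn H) (hD : triU F ⊆ H) :
    ustProb H F A = phiProb k F A := by
  have h1sum : ∑ A' ∈ (triU F).powerset, ustProb H (triU F) A' = 1 := by
    have h := ust_marg H ∅ (triU F) ∅ (Finset.empty_subset _)
    rw [ust_total hH, Finset.filter_true_of_mem (by simp)] at h
    exact h.symm
  have h2sum : ∑ A' ∈ (triU F).powerset, phiProb k (triU F) A' = 1 := by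
    have h := phi_marg k ∅ (triU F) ∅ (Finset.empty_subset _)
    rw [phi_total, Finset.filter_true_of_mem (by simp)] at h
    exact h.symm
  have hcomb := comb F (fun A' => ustProb H (triU F) A') (fun A' => phiProb k (triU F) A')
    h1sum h2sum (fun A' hA' hp => ust_pat hD A' hA' hp) (fun A' hA' hp => phi_pat F A' hA' hp)
    (fun e he A' hA' => ust_rot hD e he A' hA') (fun e he A' hA' => phi_rot F e he A' hA')
  rw [ust_marg H F (triU F) A (subset_triU F), phi_marg k F (triU F) A (subset_triU F)]
  refine Finset.sum_congr rfl (fun A' hA' => ?_)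
  exact hcomb A' (Finset.mem_powerset.mp (Finset.mem_filter.mp hA').1)

theorem main (k : ℕ) :
    ((∀ e : Edge k, e.1 ≠ e.1 * gen e.2) ∧
      ∀ e e' : Edge k,
        ({e.1, e.1 * gen e.2} : Set (Gam k)) = {e'.1, e'.1 * gen e'.2} → e = e') ∧
    ∃ Φ : (Gam k → ℝ) → Edge k → Bool, Measurable Φ ∧
      (∀ (γ : Gam k) (u : Gam k → ℝ) (e : Edge k),
        Φ (fun g => u (γ⁻¹ * g)) (γ * e.1, e.2) = Φ u e) ∧
      ∀ H : ℕ → Finset (Edge k), Monotone H → (∀ e, ∃ n, e ∈ H n) → (∀ n, EConn (H n)) →
        ∀ F A : Finset (Edge k),
          Filter.Tendsto (fun n => ustProb (H n) F A) Filter.atTop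
            (nhds ((Measure.infinitePi (fun _ : Gam k =>
              (volume : Measure ℝ).restrict (Set.Icc (0 : ℝ) 1)))
                {u | ∀ e ∈ F, (Φ u e = true ↔ e ∈ A)}).toReal) := by
  refine ⟨edge_simple k, Phi k, phi_measurable k, phi_equivariant k, ?_⟩
  intro H hmono hex hconn F A
  -- a step of the exhaustion containing the triangles of the edges of `F`
  have hN : ∃ N, triU F ⊆ H N := by
    classical
    have : ∀ D : Finset (Edge k), ∃ N, D ⊆ H N := by
      intro D
      induction D using Finset.induction_on with
      | empty => exact ⟨0, Finset.empty_subset _⟩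
      | insert a s _ ih =>
        obtain ⟨N, hN⟩ := ih
        obtain ⟨n, hn⟩ := hex a
        refine ⟨max N n, ?_⟩
        intro x hx
        rcases Finset.mem_insert.mp hx with rfl | hx
        · exact hmono (le_max_right N n) hn
        · exact hmono (le_max_left N n) (hN hx)
    exact this (triU F)
  obtain ⟨N, hN⟩ := hN
  have hev : ∀ᶠ n in Filter.atTop, ustProb (H n) F A = phiProb k F A := by
    filter_upwards [Filter.eventually_ge_atTop N] with n hn
    exact main_eq (H n) F A (hconn n) (hN.trans (hmono hn))
  have hconst : Filter.Tendsto (fun n => ustProb (H n) F A) Filter.atTop (nhds (phiProb k F A)) :=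
    Filter.Tendsto.congr' (Filter.EventuallyEq.symm hev) tendsto_const_nhds
  exact hconst

end Vale.Agent.H38.Fusf
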