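import Vale.Agent.H38.Fusf.Child

/-!
# P143 free products of Z_3, row FB-2 (Nonamen): every finite vertex set has many outer neighbours

TASK FB-2: replace the placeholder, keep the statement exactly; helper lemmas with names starting
`nonamen_`.  Uses `child_inj` (Child.lean) and Basic.lean as black boxes.
Recipe.  For every `g` choose `j g : Fin k` with ` (Word.equiv g⁻¹).fstIdx ≠ some (j g)` (there are
two different indices `⟨0, _⟩`, `⟨1, _⟩` because `2 ≤ k`; at most one of them is the first index;
`Classical.choose` of the existence statement).  Let `c : Gam k × Bool → Gam k`,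
`c (g, false) = g * gen (j g)`, `c (g, true) = g * gen (j g) * gen (j g)`.  With
`gen i = of (ofAdd 1)` and `gen i * gen i = of (ofAdd 2)` (`map_mul`, `mul_assoc`), `child_inj`
(`ofAdd 1 ≠ 1`, `ofAdd 2 ≠ 1`, `ofAdd 1 ≠ ofAdd 2` in `Multiplicative (ZMod 3)`: `decide`) shows that
`c` is injective.  `C := (A ×ˢ Finset.univ).image c` has `2 * A.card` elements
(`Finset.card_image_of_injective`, `Finset.card_product`, `Finset.card_univ`, `Fintype.card_bool`).
`B := C \ A`: disjoint from `A` (`Finset.disjoint_sdiff`), `A.card ≤ B.card` by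
`Finset.le_card_sdiff` (`C.card - A.card ≤ (C \ A).card`).
Every `y ∈ B` is `c (g, b)` with `g ∈ A`: for `b = false` take the edge `e = (g, j g)`
(first alternative); for `b = true` take `e = (g * gen (j g) * gen (j g), j g)`, for which
`e.1 * gen e.2 = g` by `gen_cube` and `mul_assoc` (second alternative).
-/

open MeasureTheory

namespace Vale.Agent.H38.Fusf

theorem nonamen_gen_sq {k : ℕ} (i : Fin k) :
    gen i * gen i = Monoid.CoprodI.of (M := fun _ : Fin k => Multiplicative (ZMod 3)) (i := i)
      (Multiplicative.ofAdd (2 : ZMod 3)) := by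
  unfold gen
  rw [← map_mul]
  rfl

theorem nonamen_ne_one (b : Bool) :
    (if b then Multiplicative.ofAdd (2 : ZMod 3) else Multiplicative.ofAdd (1 : ZMod 3)) ≠ 1 := by
  cases b <;> decide

theorem nonamen (k : ℕ) (hk : 2 ≤ k) (A : Finset (Gam k)) :
    ∃ B : Finset (Gam k), Disjoint A B ∧ A.card ≤ B.card ∧
      ∀ y ∈ B, ∃ e : Edge k, (e.1 ∈ A ∧ y = e.1 * gen e.2) ∨ (e.1 * gen e.2 ∈ A ∧ y = e.1) := by
  classical
  have hex : ∀ g : Gam k, ∃ j : Fin k,
      (Monoid.CoprodI.Word.equiv g⁻¹).fstIdx ≠ some j := by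
    intro g
    by_cases h0 : (Monoid.CoprodI.Word.equiv g⁻¹).fstIdx = some (⟨0, by omega⟩ : Fin k)
    · refine ⟨⟨1, by omega⟩, ?_⟩
      rw [h0]
      intro h
      have h1 := Option.some.inj h
      simp [Fin.ext_iff] at h1
    · exact ⟨⟨0, by omega⟩, h0⟩
  choose jj hjj using hex
  let c : Gam k × Bool → Gam k := fun p =>
    if p.2 then p.1 * gen (jj p.1) * gen (jj p.1) else p.1 * gen (jj p.1)
  have key : ∀ (g : Gam k) (b : Bool), c (g, b) =
      g * Monoid.CoprodI.of (M := fun _ : Fin k => Multiplicative (ZMod 3)) (i := jj g)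
        (if b then Multiplicative.ofAdd (2 : ZMod 3) else Multiplicative.ofAdd (1 : ZMod 3)) := by
    intro g b
    cases b
    · rfl
    · show g * gen (jj g) * gen (jj g) = _
      rw [mul_assoc, nonamen_gen_sq]
      rfl
  have hcinj : Function.Injective c := by
    rintro ⟨g, b⟩ ⟨g', b'⟩ h
    rw [key, key] at h
    obtain ⟨hg, _, hm⟩ := child_inj g g' (jj g) (jj g') _ _ (nonamen_ne_one b) (nonamen_ne_one b')
      (hjj g) (hjj g') h
    subst hg
    have hb : b = b' := by
      cases b <;> cases b'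
      · rfl
      · exfalso; revert hm; decide
      · exfalso; revert hm; decide
      · rfl
    rw [hb]
  refine ⟨(A ×ˢ (Finset.univ : Finset Bool)).image c \ A, Finset.disjoint_sdiff, ?_, ?_⟩
  · have hcard : ((A ×ˢ (Finset.univ : Finset Bool)).image c).card = 2 * A.card := by
      rw [Finset.card_image_of_injective _ hcinj, Finset.card_product, Finset.card_univ,
        Fintype.card_bool, mul_comm]
    have h2 := Finset.le_card_sdiff A ((A ×ˢ (Finset.univ : Finset Bool)).image c)
    omega
  · intro y hy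
    rw [Finset.mem_sdiff, Finset.mem_image] at hy
    obtain ⟨⟨⟨g, b⟩, hgb, rfl⟩, _⟩ := hy
    have hgA : g ∈ A := (Finset.mem_product.mp hgb).1
    cases b
    · exact ⟨(g, jj g), Or.inl ⟨hgA, rfl⟩⟩
    · refine ⟨(g * gen (jj g) * gen (jj g), jj g), Or.inr ⟨?_, rfl⟩⟩
      show g * gen (jj g) * gen (jj g) * gen (jj g) ∈ A
      rw [mul_assoc, mul_assoc, ← mul_assoc (gen (jj g)), gen_cube, mul_one]
      exact hgA

end Vale.Agent.H38.Fusf
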