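import Vale.Agent.H38.Fusf.Main
import Vale.Agent.H38.Fusf.Nonamen
import Vale.Agent.H38.Fusf.EdgeProb

/-!
# P143 free products of Z_3: assembly of the second statement

The statement of `main` together with: the vertex-isoperimetric inequality for `2 ≤ k`, the fact
that the factor map reads only the labels of the three vertices of the triangle of an edge, and
the probability two thirds of every edge.
-/

open MeasureTheory

namespace Vale.Agent.H38.Fusf

theorem phi_local (k : ℕ) (u u' : Gam k → ℝ) (e : Edge k) (h0 : u e.1 = u' e.1)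
    (h1 : u (e.1 * gen e.2) = u' (e.1 * gen e.2))
    (h2 : u (e.1 * gen e.2 * gen e.2) = u' (e.1 * gen e.2 * gen e.2)) :
    Phi k u e = Phi k u' e := by
  unfold Phi
  rw [h0, h1, h2]

theorem phi_limit (k : ℕ) (H : ℕ → Finset (Edge k)) (hmono : Monotone H)
    (hex : ∀ e, ∃ n, e ∈ H n) (hconn : ∀ n, EConn (H n)) (F A : Finset (Edge k)) :
    Filter.Tendsto (fun n => ustProb (H n) F A) Filter.atTop (nhds (phiProb k F A)) := by
  have hN : ∃ N, triU F ⊆ H N := by
    classical
    have : ∀ D : Finset (Edge k), ∃ N, D ⊆ H N := by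
      intro D
      induction D using Finset.induction_on with
      | empty => exact ⟨0, Finset.empty_subset _⟩
      | insert a s _ ih =>
        obtain ⟨N, hN⟩ := ih
        obtain ⟨n, hn⟩ := hex a
        refine ⟨max N n, ?_⟩
        intro x hx
        rcases Finset.mem_insert.mp hx with rfl | hx
        · exact hmono (le_max_right N n) hn
        · exact hmono (le_max_left N n) (hN hx)
    exact this (triU F)
  obtain ⟨N, hN⟩ := hN
  have hev : ∀ᶠ n in Filter.atTop, ustProb (H n) F A = phiProb k F A := by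
    filter_upwards [Filter.eventually_ge_atTop N] with n hn
    exact main_eq (H n) F A (hconn n) (hN.trans (hmono hn))
  exact Filter.Tendsto.congr' (Filter.EventuallyEq.symm hev) tendsto_const_nhds

theorem main_b (k : ℕ) :
    ((∀ e : Edge k, e.1 ≠ e.1 * gen e.2) ∧
      ∀ e e' : Edge k,
        ({e.1, e.1 * gen e.2} : Set (Gam k)) = {e'.1, e'.1 * gen e'.2} → e = e') ∧
    (2 ≤ k → ∀ A : Finset (Gam k), ∃ B : Finset (Gam k), Disjoint A B ∧ A.card ≤ B.card ∧
      ∀ y ∈ B, ∃ e : Edge k, (e.1 ∈ A ∧ y = e.1 * gen e.2) ∨ (e.1 * gen e.2 ∈ A ∧ y = e.1)) ∧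
    ∃ Φ : (Gam k → ℝ) → Edge k → Bool, Measurable Φ ∧
      (∀ (γ : Gam k) (u : Gam k → ℝ) (e : Edge k),
        Φ (fun g => u (γ⁻¹ * g)) (γ * e.1, e.2) = Φ u e) ∧
      (∀ (u u' : Gam k → ℝ) (e : Edge k), u e.1 = u' e.1 →
        u (e.1 * gen e.2) = u' (e.1 * gen e.2) →
        u (e.1 * gen e.2 * gen e.2) = u' (e.1 * gen e.2 * gen e.2) → Φ u e = Φ u' e) ∧
      (∀ e : Edge k, ((Measure.infinitePi (fun _ : Gam k =>
        (volume : Measure ℝ).restrict (Set.Icc (0 : ℝ) 1))) {u | Φ u e = true}).toReal = 2 / 3) ∧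
      ∀ H : ℕ → Finset (Edge k), Monotone H → (∀ e, ∃ n, e ∈ H n) → (∀ n, EConn (H n)) →
        ∀ F A : Finset (Edge k),
          Filter.Tendsto (fun n => ustProb (H n) F A) Filter.atTop
            (nhds ((Measure.infinitePi (fun _ : Gam k =>
              (volume : Measure ℝ).restrict (Set.Icc (0 : ℝ) 1)))
                {u | ∀ e ∈ F, (Φ u e = true ↔ e ∈ A)}).toReal) := by
  refine ⟨edge_simple k, fun hk A => nonamen k hk A, Phi k, phi_measurable k, phi_equivariant k,
    phi_local k, ?_, ?_⟩
  · intro e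
    have h := phi_edge k e
    have hset : {u : Gam k → ℝ | ∀ e' ∈ ({e} : Finset (Edge k)),
        (Phi k u e' = true ↔ e' ∈ ({e} : Finset (Edge k)))} = {u | Phi k u e = true} := by
      ext u
      simp
    unfold phiProb labelLaw at h
    rw [hset] at h
    exact h
  · intro H hmono hex hconn F A
    exact phi_limit k H hmono hex hconn F A

end Vale.Agent.H38.Fusf
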