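import Vale.Agent.H38.Fusf.Inner

/-!
# P143 free products of Z_3, row FU-14 (Shift): the digit shift

TASK FU-14: replace every placeholder, keep the statements exactly; helper lemmas with names
starting `shift_`.
`dig j x = (⌊3^(j+1) * x⌋ : ZMod 3)`, `wv k x = Int.fract (3^k * x)`,
`shift j x = if dig j x = 2 then x - 2 / 3^(j+1) else x + 1 / 3^(j+1)`.
Recipe.  Put `n := ⌊3^(j+1) * x⌋`, `δ := -2` if ` (n : ZMod 3) = 2` and `δ := 1` otherwise, so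
`shift j x = x + δ / 3^(j+1)` and `3^(j+1) * shift j x = 3^(j+1) * x + δ`.
* `dig_shift_self`: `⌊3^(j+1) * x + δ⌋ = n + δ` (`Int.floor_add_intCast`); in `ZMod 3`:
  `2 - 2 = 0 = 2 + 1`, resp. `n + 1`.
* `dig_shift_ne`, `i > j`: `3^(i+1) * shift j x = 3^(i+1) * x + δ * 3^(i-j)`, an integer shift by a
  multiple of `3`.
* `dig_shift_ne`, `i < j`: with `M := 3^(j-i)` (a positive multiple of `3`), `z := 3^(i+1) * x`,
  `3^(j+1) * x = M * z`, `q := ⌊z⌋`: `q * M ≤ n ≤ q * M + M - 1`.  Claim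
  `⌊z + δ / M⌋ = q`, i.e. `q * M ≤ M * z + δ < (q + 1) * M`.  If `δ = 1`: `n ≠ q * M + M - 1`
  because that number is `2` in `ZMod 3`, so `n + 2 ≤ (q + 1) * M` and `M * z + 1 < n + 2`.
  If `δ = -2`: `n ≥ q * M + 2` because `n ≡ 2`, `q * M ≡ 0 mod 3`, so `M * z - 2 ≥ n - 2 ≥ q * M`.
  (Work with integers: `Int.floor_eq_iff`, `Int.emod_emod_of_dvd`, `ZMod.intCast_eq_intCast_iff`
  or ` (ZMod.intCast_zmod_eq_zero_iff_dvd)`.)
* `wv_shift`: `3^k * shift j x = 3^k * x + δ * 3^(k-j-1)`, an integer shift (`Int.fract_add_intCast`).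
* `measurable_shift`: `dig j` is measurable (floor of a continuous function, then a map from `ℤ`),
  `Measurable.ite` with the measurable set `{x | dig j x = 2}`.
-/

open MeasureTheory

namespace Vale.Agent.H38.Fusf

/-- The shift adds an integer `δ ∈ {-2, 1}` to the digit number `j`. -/
theorem shift_delta (j : ℕ) (x : ℝ) :
    ∃ δ : ℤ, ((δ = -2 ∧ dig j x = 2) ∨ (δ = 1 ∧ dig j x ≠ 2)) ∧
      shift j x = x + (δ : ℝ) / (3 : ℝ) ^ (j + 1) := by
  by_cases h : dig j x = 2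
  · refine ⟨-2, Or.inl ⟨rfl, h⟩, ?_⟩
    unfold shift
    rw [if_pos h]
    push_cast
    ring
  · refine ⟨1, Or.inr ⟨rfl, h⟩, ?_⟩
    unfold shift
    rw [if_neg h]
    push_cast
    ring

theorem shift_delta_cast (δ : ℤ) (h : δ = -2 ∨ δ = 1) : ((δ : ℤ) : ZMod 3) = 1 := by
  rcases h with rfl | rfl
  · have h1 : ((-2 : ℤ) : ZMod 3) = ((1 : ℤ) : ZMod 3) :=
      (ZMod.intCast_eq_intCast_iff (-2) 1 3).mpr (by decide)
    rw [h1, Int.cast_one]
  · exact Int.cast_one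

theorem shift_scale (a b : ℕ) (hab : a ≤ b) (x d : ℝ) :
    (3 : ℝ) ^ b * (x + d / (3 : ℝ) ^ a) = (3 : ℝ) ^ b * x + d * (3 : ℝ) ^ (b - a) := by
  have hpow : (3 : ℝ) ^ b = (3 : ℝ) ^ (b - a) * (3 : ℝ) ^ a := by
    rw [← pow_add]
    congr 1
    omega
  have hP : (3 : ℝ) ^ a ≠ 0 := by positivity
  rw [mul_add, hpow, mul_assoc ((3 : ℝ) ^ (b - a)) ((3 : ℝ) ^ a) (d / (3 : ℝ) ^ a),
    mul_div_cancel₀ d hP, mul_comm ((3 : ℝ) ^ (b - a)) d]

/-- The case `i < j` of `dig_shift_ne`. -/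
theorem shift_dig_lt {i j : ℕ} (hij : i < j) (x : ℝ) (δ : ℤ)
    (hδ : (δ = -2 ∧ dig j x = 2) ∨ (δ = 1 ∧ dig j x ≠ 2))
    (hs : shift j x = x + (δ : ℝ) / (3 : ℝ) ^ (j + 1)) : dig i (shift j x) = dig i x := by
  obtain ⟨z, hz⟩ : ∃ z : ℝ, z = (3 : ℝ) ^ (i + 1) * x := ⟨_, rfl⟩
  obtain ⟨q, hq⟩ : ∃ q : ℤ, q = ⌊z⌋ := ⟨_, rfl⟩
  obtain ⟨n, hn⟩ : ∃ n : ℤ, n = ⌊(3 : ℝ) ^ (j + 1) * x⌋ := ⟨_, rfl⟩
  obtain ⟨M, hM⟩ : ∃ M : ℤ, M = 3 ^ (j - i) := ⟨_, rfl⟩
  have hMpos : (0 : ℤ) < M := by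
    rw [hM]
    positivity
  have hM3 : (3 : ℤ) ∣ M := by
    rw [hM]
    exact dvd_pow_self 3 (by omega)
  have hMr : (M : ℝ) = (3 : ℝ) ^ (j - i) := by
    rw [hM]
    push_cast
    rfl
  have hpow : (3 : ℝ) ^ (j + 1) = (3 : ℝ) ^ (j - i) * (3 : ℝ) ^ (i + 1) := by
    rw [← pow_add]
    congr 1
    omega
  have hMz : (3 : ℝ) ^ (j + 1) * x = (M : ℝ) * z := by
    rw [hMr, hz, hpow, mul_assoc]
  have hMr0 : (0 : ℝ) < (M : ℝ) := by exact_mod_cast hMpos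
  have hq1 : (q : ℝ) ≤ z := by
    rw [hq]
    exact Int.floor_le z
  have hq2 : z < (q : ℝ) + 1 := by
    rw [hq]
    exact Int.lt_floor_add_one z
  have hn1 : (n : ℝ) ≤ (M : ℝ) * z := by
    rw [← hMz, hn]
    exact Int.floor_le _
  have hn2 : (M : ℝ) * z < (n : ℝ) + 1 := by
    rw [← hMz, hn]
    exact Int.lt_floor_add_one _
  have hqM : (q : ℝ) * (M : ℝ) ≤ z * (M : ℝ) := mul_le_mul_of_nonneg_right hq1 hMr0.le
  have hqM2 : z * (M : ℝ) < ((q : ℝ) + 1) * (M : ℝ) := mul_lt_mul_of_pos_right hq2 hMr0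
  have hlo : q * M ≤ n := by
    have h1 : ((q * M : ℤ) : ℝ) < ((n + 1 : ℤ) : ℝ) := by
      push_cast
      linarith
    exact Int.lt_add_one_iff.mp (by exact_mod_cast h1)
  have hhi : n < (q + 1) * M := by
    have h1 : ((n : ℤ) : ℝ) < (((q + 1) * M : ℤ) : ℝ) := by
      push_cast
      linarith
    exact_mod_cast h1
  have hdig : dig j x = ((n : ℤ) : ZMod 3) := by
    rw [hn]
    rfl
  have hzd : z + (δ : ℝ) / (M : ℝ) = ((M : ℝ) * z + (δ : ℝ)) / (M : ℝ) := by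
    field_simp
  have hclaim : ⌊z + (δ : ℝ) / (M : ℝ)⌋ = q := by
    rw [hzd, Int.floor_eq_iff, le_div_iff₀ hMr0, div_lt_iff₀ hMr0]
    rcases hδ with ⟨rfl, h2⟩ | ⟨rfl, h2⟩
    · have h3 : ((n : ℤ) : ZMod 3) = ((2 : ℤ) : ZMod 3) := by
        rw [← hdig, h2]
        simp
      have h4 : n % 3 = 2 := by
        have h5 := (ZMod.intCast_eq_intCast_iff n 2 3).mp h3
        unfold Int.ModEq at h5
        omega
      have h6 : (q * M) % 3 = 0 := Int.emod_eq_zero_of_dvd (Dvd.dvd.mul_left hM3 q)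
      have h7 : q * M + 2 ≤ n := by omega
      have h8 : ((q * M + 2 : ℤ) : ℝ) ≤ ((n : ℤ) : ℝ) := by exact_mod_cast h7
      have h9 : ((n : ℤ) : ℝ) < (((q + 1) * M : ℤ) : ℝ) := by exact_mod_cast hhi
      push_cast at h8 h9 ⊢
      constructor <;> linarith
    · have h3 : ((n : ℤ) : ZMod 3) ≠ ((2 : ℤ) : ZMod 3) := by
        rw [← hdig]
        simpa using h2
      have h4 : n % 3 ≠ 2 := by
        intro h5
        apply h3
        refine (ZMod.intCast_eq_intCast_iff n 2 3).mpr ?_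
        unfold Int.ModEq
        omega
      have h6 : ((q + 1) * M) % 3 = 0 := Int.emod_eq_zero_of_dvd (Dvd.dvd.mul_left hM3 (q + 1))
      have h7 : n + 2 ≤ (q + 1) * M := by omega
      have h8 : ((n + 2 : ℤ) : ℝ) ≤ (((q + 1) * M : ℤ) : ℝ) := by exact_mod_cast h7
      push_cast at h8 ⊢
      constructor <;> linarith
  have e' : (3 : ℝ) ^ (i + 1) * shift j x = z + (δ : ℝ) / (M : ℝ) := by
    rw [hs, mul_add, hMr, hpow, hz]
    congr 1
    have hP : (3 : ℝ) ^ (i + 1) ≠ 0 := by positivity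
    have hP2 : (3 : ℝ) ^ (j - i) ≠ 0 := by positivity
    field_simp
  unfold dig
  rw [e', hclaim, hq, hz]

theorem dig_shift_self (j : ℕ) (x : ℝ) : dig j (shift j x) = dig j x + 1 := by
  obtain ⟨δ, hδ, hs⟩ := shift_delta j x
  have hδ1 : ((δ : ℤ) : ZMod 3) = 1 :=
    shift_delta_cast δ (hδ.elim (fun h => Or.inl h.1) (fun h => Or.inr h.1))
  have e : (3 : ℝ) ^ (j + 1) * shift j x = (3 : ℝ) ^ (j + 1) * x + ((δ : ℤ) : ℝ) := by
    rw [hs, shift_scale (j + 1) (j + 1) le_rfl, Nat.sub_self, pow_zero, mul_one]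
  unfold dig
  rw [e, Int.floor_add_intCast, Int.cast_add, hδ1]

theorem dig_shift_ne {i j : ℕ} (h : i ≠ j) (x : ℝ) : dig i (shift j x) = dig i x := by
  obtain ⟨δ, hδ, hs⟩ := shift_delta j x
  rcases Nat.lt_or_gt_of_ne h with hij | hji
  · exact shift_dig_lt hij x δ hδ hs
  · have e : (3 : ℝ) ^ (i + 1) * shift j x
        = (3 : ℝ) ^ (i + 1) * x + ((δ * 3 ^ (i + 1 - (j + 1)) : ℤ) : ℝ) := by
      rw [hs, shift_scale (j + 1) (i + 1) (by omega)]
      push_cast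
      ring
    have h0 : ((δ * 3 ^ (i + 1 - (j + 1)) : ℤ) : ZMod 3) = 0 := by
      have hd : (3 : ℤ) ∣ δ * 3 ^ (i + 1 - (j + 1)) :=
        Dvd.dvd.mul_left (dvd_pow_self 3 (by omega)) δ
      exact (ZMod.intCast_zmod_eq_zero_iff_dvd _ 3).mpr (by exact_mod_cast hd)
    unfold dig
    rw [e, Int.floor_add_intCast, Int.cast_add, h0, add_zero]

theorem wv_shift {k j : ℕ} (h : j < k) (x : ℝ) : wv k (shift j x) = wv k x := by
  obtain ⟨δ, -, hs⟩ := shift_delta j x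
  have e : (3 : ℝ) ^ k * shift j x
      = (3 : ℝ) ^ k * x + ((δ * 3 ^ (k - (j + 1)) : ℤ) : ℝ) := by
    rw [hs, shift_scale (j + 1) k h]
    push_cast
    ring
  unfold wv
  rw [e, Int.fract_add_intCast]

theorem measurable_dig (j : ℕ) : Measurable (dig j) := by
  have h1 : Measurable (fun x : ℝ => ⌊(3 : ℝ) ^ (j + 1) * x⌋) :=
    Int.measurable_floor.comp (measurable_const_mul _)
  have h2 : Measurable (fun m : ℤ => ((m : ℤ) : ZMod 3)) := measurable_from_top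
  exact h2.comp h1

theorem measurable_shift (j : ℕ) : Measurable (shift j) := by
  unfold shift
  exact Measurable.ite ((measurable_dig j) (MeasurableSpace.measurableSet_top (s := {2})))
    (measurable_id.sub_const _) (measurable_id.add_const _)

end Vale.Agent.H38.Fusf
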