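import Vale.Agent.H38.Fusf.Shift

/-!
# P143 free products of Z_3, row FU-15 (ShiftMP): the digit shift preserves the uniform law

TASK FU-15: replace the placeholder, keep the statement exactly; helper lemmas with names starting
`shiftmp_`.  Uses Shift.lean as a black box.
Recipe.  `c := 1 / 3^(j+1)`, `A₂ := {x | dig j x = 2}` (measurable), `shift j x = x - 2 * c` on
`A₂` and `x + c` off `A₂`.
(1) `MeasurePreserving (shift j) volume volume`: for measurable `s`,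
`shift j ⁻¹' s = (A₂ ∩ (fun x => x - 2 * c) ⁻¹' s) ∪ (A₂ᶜ ∩ (fun x => x + c) ⁻¹' s)` (disjoint),
translations preserve `volume` (`measurePreserving_add_right`, `measurePreserving_sub_right`, or
`Real.volume_preimage_add_right`-style / `MeasureTheory.measure_preimage_add_right`), and the images
are `{y ∈ s | dig j y = 0}` and `{y ∈ s | dig j y ≠ 0}`: `dig j (x - 2 * c) = dig j x - 2`,
`dig j (x + c) = dig j x + 1` for all `x` (floor of an integer shift), so
`x ∈ A₂ ↔ dig j (x - 2 * c) = 0` and `x ∉ A₂ ↔ dig j (x + c) ≠ 0`.  Sum: `volume s`.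
(2) `shift j ⁻¹' (Set.Ico 0 1) = Set.Ico 0 1`: for `q := ⌊3^j * x⌋` the three numbers `x`, `x + c`,
`x - 2 * c` that occur lie in the same block `[q / 3^j, (q + 1) / 3^j)`; `0 ≤ x < 1` iff
`0 ≤ q < 3^j`.  (Or: `shift j x ∈ Ico 0 1 ↔ x ∈ Ico 0 1` from `⌊3^j * shift j x⌋ = ⌊3^j * x⌋`,
the case `i < j` of `dig_shift_ne` done with `j` in place of `i + 1`; for `j = 0` directly.)
(3) `MeasurePreserving.restrict_preimage` with `Set.Ico 0 1`, then
`Measure.restrict_congr_set Ico_ae_eq_Icc` on both sides.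
-/

open MeasureTheory

namespace Vale.Agent.H38.Fusf

theorem shiftmp_pow (j : ℕ) : (3 : ℝ) ^ (j + 1) = 3 * (3 : ℝ) ^ j := by
  rw [pow_succ]; ring

theorem shiftmp_dig_sub (j : ℕ) (x : ℝ) :
    dig j (x - 2 / (3 : ℝ) ^ (j + 1)) = dig j x - 2 := by
  unfold dig
  have hpos : (3 : ℝ) ^ (j + 1) ≠ 0 := by positivity
  have h1 : (3 : ℝ) ^ (j + 1) * (x - 2 / (3 : ℝ) ^ (j + 1))
      = (3 : ℝ) ^ (j + 1) * x - ((2 : ℤ) : ℝ) := by
    field_simp
    push_cast
    ring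
  rw [h1, Int.floor_sub_intCast]
  push_cast
  rfl

theorem shiftmp_dig_add (j : ℕ) (x : ℝ) :
    dig j (x + 1 / (3 : ℝ) ^ (j + 1)) = dig j x + 1 := by
  unfold dig
  have hpos : (3 : ℝ) ^ (j + 1) ≠ 0 := by positivity
  have h1 : (3 : ℝ) ^ (j + 1) * (x + 1 / (3 : ℝ) ^ (j + 1))
      = (3 : ℝ) ^ (j + 1) * x + ((1 : ℤ) : ℝ) := by
    field_simp
    push_cast
    ring
  rw [h1, Int.floor_add_intCast]
  push_cast
  rfl

theorem shiftmp_floor (j : ℕ) (x : ℝ) :
    ⌊(3 : ℝ) ^ j * shift j x⌋ = ⌊(3 : ℝ) ^ j * x⌋ := by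
  obtain ⟨z, hz⟩ : ∃ z : ℝ, z = (3 : ℝ) ^ j * x := ⟨_, rfl⟩
  obtain ⟨q, hq⟩ : ∃ q : ℤ, q = ⌊z⌋ := ⟨_, rfl⟩
  obtain ⟨n, hn⟩ : ∃ n : ℤ, n = ⌊(3 : ℝ) ^ (j + 1) * x⌋ := ⟨_, rfl⟩
  have h3 := shiftmp_pow j
  have hpos : (0 : ℝ) < (3 : ℝ) ^ j := by positivity
  have hq1 : (q : ℝ) ≤ z := by rw [hq]; exact Int.floor_le z
  have hq2 : z < (q : ℝ) + 1 := by rw [hq]; exact Int.lt_floor_add_one z
  have h3z : (3 : ℝ) ^ (j + 1) * x = 3 * z := by rw [h3, hz]; ring
  have hn1 : (n : ℝ) ≤ 3 * z := by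
    rw [hn, ← h3z]; exact Int.floor_le _
  have hn2 : 3 * z < (n : ℝ) + 1 := by
    rw [hn, ← h3z]; exact Int.lt_floor_add_one _
  have hA : 3 * q ≤ n := by
    have h : ((3 * q : ℤ) : ℝ) < ((n + 1 : ℤ) : ℝ) := by push_cast; linarith
    have h' := Int.cast_lt.mp h
    omega
  have hB : n ≤ 3 * q + 2 := by
    have h : ((n : ℤ) : ℝ) < ((3 * q + 3 : ℤ) : ℝ) := by push_cast; linarith
    have h' := Int.cast_lt.mp h
    omega
  have hdig : dig j x = ((n : ℤ) : ZMod 3) := by unfold dig; rw [hn]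
  have e1 : (3 : ℝ) ^ j * (x - 2 / (3 : ℝ) ^ (j + 1)) = z - 2 / 3 := by
    rw [hz, h3]; field_simp
  have e2 : (3 : ℝ) ^ j * (x + 1 / (3 : ℝ) ^ (j + 1)) = z + 1 / 3 := by
    rw [hz, h3]; field_simp
  rw [← hz, ← hq]
  unfold shift
  by_cases hd : dig j x = 2
  · rw [if_pos hd, e1]
    have hmod : n % 3 = 2 % 3 := by
      have h : ((n : ℤ) : ZMod 3) = ((2 : ℤ) : ZMod 3) := by
        rw [← hdig, hd]; norm_num
      exact (ZMod.intCast_eq_intCast_iff' (a := n) (b := 2) (c := 3)).mp h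
    have hn3 : n = 3 * q + 2 := by omega
    have hn3' : (n : ℝ) = 3 * (q : ℝ) + 2 := by rw [hn3]; push_cast; ring
    rw [Int.floor_eq_iff]
    constructor
    · linarith
    · linarith
  · rw [if_neg hd, e2]
    have hmod : ¬ (n % 3 = 2 % 3) := by
      intro h
      apply hd
      have h' := (ZMod.intCast_eq_intCast_iff' (a := n) (b := 2) (c := 3)).mpr h
      rw [hdig, h']; norm_num
    have hn3 : n ≤ 3 * q + 1 := by omega
    have hn3' : (n : ℝ) ≤ 3 * (q : ℝ) + 1 := by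
      have : ((n : ℤ) : ℝ) ≤ ((3 * q + 1 : ℤ) : ℝ) := Int.cast_le.mpr hn3
      push_cast at this; linarith
    rw [Int.floor_eq_iff]
    constructor
    · linarith
    · linarith

theorem shiftmp_measurable_zero (j : ℕ) : MeasurableSet {y : ℝ | dig j y = 0} :=
  measurable_dig j (measurableSet_singleton 0)

theorem shiftmp_preimage (j : ℕ) (s : Set ℝ) :
    shift j ⁻¹' s = ((fun x : ℝ => x + (-(2 / (3 : ℝ) ^ (j + 1)))) ⁻¹' (s ∩ {y : ℝ | dig j y = 0}))
      ∪ ((fun x : ℝ => x + 1 / (3 : ℝ) ^ (j + 1)) ⁻¹' (s \ {y : ℝ | dig j y = 0})) := by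
  ext x
  simp only [Set.mem_preimage, Set.mem_union, Set.mem_inter_iff, Set.mem_diff, Set.mem_setOf_eq]
  have hs1 : dig j (x + (-(2 / (3 : ℝ) ^ (j + 1)))) = dig j x - 2 := by
    rw [← sub_eq_add_neg]; exact shiftmp_dig_sub j x
  have hs2 := shiftmp_dig_add j x
  rw [hs1, hs2]
  by_cases hd : dig j x = 2
  · have e : shift j x = x + (-(2 / (3 : ℝ) ^ (j + 1))) := by
      unfold shift; rw [if_pos hd]; ring
    rw [e, hd]
    have h1 : (2 : ZMod 3) - 2 = 0 := by decide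
    have h2 : (2 : ZMod 3) + 1 = 0 := by decide
    simp [h1, h2]
  · have e : shift j x = x + 1 / (3 : ℝ) ^ (j + 1) := by
      unfold shift; rw [if_neg hd]
    rw [e]
    have h1 : ¬ (dig j x - 2 = 0) := by
      intro h; exact hd (sub_eq_zero.mp h)
    have h2 : ¬ (dig j x + 1 = 0) := by
      intro h
      apply hd
      have h3 : dig j x = -1 := eq_neg_of_add_eq_zero_left h
      rw [h3]; decide
    simp [h1, h2]

theorem shiftmp_volume (j : ℕ) : MeasurePreserving (shift j) (volume : Measure ℝ) volume := by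
  refine ⟨measurable_shift j, ?_⟩
  ext s hs
  rw [Measure.map_apply (measurable_shift j) hs, shiftmp_preimage j s]
  have hB := shiftmp_measurable_zero j
  have hdisj : Disjoint
      ((fun x : ℝ => x + (-(2 / (3 : ℝ) ^ (j + 1)))) ⁻¹' (s ∩ {y : ℝ | dig j y = 0}))
      ((fun x : ℝ => x + 1 / (3 : ℝ) ^ (j + 1)) ⁻¹' (s \ {y : ℝ | dig j y = 0})) := by
    rw [Set.disjoint_left]
    intro x hx1 hx2
    simp only [Set.mem_preimage, Set.mem_inter_iff, Set.mem_diff, Set.mem_setOf_eq] at hx1 hx2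
    have hs1 : dig j (x + (-(2 / (3 : ℝ) ^ (j + 1)))) = dig j x - 2 := by
      rw [← sub_eq_add_neg]; exact shiftmp_dig_sub j x
    have hs2 := shiftmp_dig_add j x
    have hd : dig j x = 2 := by
      have := hx1.2; rw [hs1] at this; exact sub_eq_zero.mp this
    apply hx2.2
    rw [hs2, hd]; decide
  have hm2 : MeasurableSet
      ((fun x : ℝ => x + 1 / (3 : ℝ) ^ (j + 1)) ⁻¹' (s \ {y : ℝ | dig j y = 0})) :=
    (measurable_add_const _) (hs.diff hB)
  rw [measure_union hdisj hm2, measure_preimage_add_right, measure_preimage_add_right,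
    measure_inter_add_diff s hB]

theorem shiftmp_Ico (j : ℕ) : shift j ⁻¹' Set.Ico (0 : ℝ) 1 = Set.Ico (0 : ℝ) 1 := by
  ext x
  simp only [Set.mem_preimage, Set.mem_Ico]
  have hf := shiftmp_floor j x
  have key : ∀ y : ℝ, (0 ≤ y ∧ y < 1) ↔
      (0 ≤ ⌊(3 : ℝ) ^ j * y⌋ ∧ ⌊(3 : ℝ) ^ j * y⌋ < (3 : ℤ) ^ j) := by
    intro y
    have hpos : (0 : ℝ) < (3 : ℝ) ^ j := by positivity
    rw [Int.floor_nonneg, Int.floor_lt]
    push_cast
    constructor
    · rintro ⟨h0, h1⟩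
      exact ⟨mul_nonneg hpos.le h0, by nlinarith⟩
    · rintro ⟨h0, h1⟩
      refine ⟨?_, ?_⟩
      · by_contra hneg
        push Not at hneg
        nlinarith
      · by_contra hneg
        push Not at hneg
        nlinarith
  rw [key (shift j x), key x, hf]

theorem shift_measurePreserving (j : ℕ) :
    MeasurePreserving (shift j) ((volume : Measure ℝ).restrict (Set.Icc (0 : ℝ) 1))
      ((volume : Measure ℝ).restrict (Set.Icc (0 : ℝ) 1)) := by
  have h1 := (shiftmp_volume j).restrict_preimage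
    (measurableSet_Ico : MeasurableSet (Set.Ico (0 : ℝ) 1))
  rw [shiftmp_Ico j] at h1
  have h2 : (volume : Measure ℝ).restrict (Set.Ico (0 : ℝ) 1)
      = (volume : Measure ℝ).restrict (Set.Icc (0 : ℝ) 1) :=
    Measure.restrict_congr_set Ico_ae_eq_Icc
  rw [h2] at h1
  exact h1

end Vale.Agent.H38.Fusf
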