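import Vale.Agent.H38.Fusf.Shift
import Vale.Agent.H38.Fusf.Basic

/-!
# P143 free products of Z_3, row FU-17 (SigPhi): a digit shift at one vertex rotates one triangle

TASK FU-17: replace the placeholder, keep the statement exactly; helper lemmas with names starting
`sigphi_`.  Uses `dig_shift_self`, `dig_shift_ne`, `wv_shift`, Basic.lean as black boxes.
Recipe.  `e₀ = (v, j)`, `t := gen j`, `σ := sig v j`, `f = (g, i)`; the frame of `f` is
`g`, `g * gen i`, `g * gen i * gen i`.
* `f ∈ tri e₀`: `i = j` and `g` is `v`, `v * t` or `v * t * t` (`mem_tri_iff`).  The frame of `f`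
  consists of the three different vertices `v`, `v * t`, `v * t * t` (`gen_ne_one`, `gen_sq_ne_one`,
  `gen_cube`), exactly one of which is `v`: its label is replaced by `shift j` of it, so in
  `Del k j` the three values `wv k` are unchanged (`wv_shift`, `j < k`) and the digit sum grows by
  `1` (`dig_shift_self`).  The frame of `rot (rot f) = (g * t * t, j)` is
  `g * t * t`, `g * t * t * t = g`, `g * t * t * t * t = g * t`.  With `x0, x1, x2` the labels of
  `g`, `g * t`, `g * t * t` under `u`, `s` their digit sum: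
  `Del k j` at `σ u` in the frame of `f` is
  ` (Win w0 w1 w2 ∧ s + 1 = 0) ∨ (Win w1 w2 w0 ∧ s + 1 = 2) ∨ (Win w2 w0 w1 ∧ s + 1 = 1)`, and
  `Del k j x2 x0 x1` is ` (Win w2 w0 w1 ∧ s = 0) ∨ (Win w0 w1 w2 ∧ s = 2) ∨ (Win w1 w2 w0 ∧ s = 1)`
  (the digit sum in the other order: `add_comm`); equal because `s + 1 = 0 ↔ s = 2` etc. in
  `ZMod 3` (`decide` on `s`).
* `f ∉ tri e₀`: if `v` is none of the three vertices of the frame of `f`, nothing changes.
  Otherwise `i ≠ j` (if `i = j` and `v` is `g`, `g * t` or `g * t * t` then `g` is `v`,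
  `v * t * t` or `v * t`, so `f ∈ tri e₀`), and the label of `v` enters only through `dig i` and
  `wv k`, both unchanged by `shift j` (`dig_shift_ne` with ` (i : ℕ) ≠ (j : ℕ)`, `wv_shift`).
  (Uniformly: for every vertex `a`, `wv k (σ u a) = wv k (u a)` and `dig i (σ u a) = dig i (u a)`
  when ` (i : ℕ) ≠ j`.)
-/

open MeasureTheory

namespace Vale.Agent.H38.Fusf

theorem sigphi_wv {k : ℕ} (v : Gam k) (j : Fin k) (u : Gam k → ℝ) (a : Gam k) :
    wv k (sig v (j : ℕ) u a) = wv k (u a) := by
  unfold sig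
  split_ifs with h
  · exact wv_shift j.isLt _
  · rfl

theorem sigphi_dig_ne {k : ℕ} (v : Gam k) (j i : ℕ) (h : i ≠ j) (u : Gam k → ℝ) (a : Gam k) :
    dig i (sig v j u a) = dig i (u a) := by
  unfold sig
  split_ifs with h'
  · exact dig_shift_ne h _
  · rfl

theorem sigphi_dig_self {k : ℕ} (v : Gam k) (j : ℕ) (u : Gam k → ℝ) :
    dig j (sig v j u v) = dig j (u v) + 1 := by
  unfold sig
  rw [if_pos rfl]
  exact dig_shift_self j _

theorem sigphi_dig_other {k : ℕ} (v : Gam k) (j : ℕ) (u : Gam k → ℝ) (a : Gam k) (h : a ≠ v) :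
    dig j (sig v j u a) = dig j (u a) := by
  unfold sig
  rw [if_neg h]

theorem sigphi_phi_congr {k : ℕ} (u u' : Gam k → ℝ) (e e' : Edge k)
    (h : Del k (e.2 : ℕ) (u e.1) (u (e.1 * gen e.2)) (u (e.1 * gen e.2 * gen e.2))
      ↔ Del k (e'.2 : ℕ) (u' e'.1) (u' (e'.1 * gen e'.2)) (u' (e'.1 * gen e'.2 * gen e'.2))) :
    Phi k u e = Phi k u' e' := by
  unfold Phi
  exact decide_eq_decide.mpr (not_congr h)

theorem sigphi_key1 (s : ZMod 3) : s + 1 = 0 ↔ s = 2 := by
  constructor
  · intro h
    have h2 : s = -1 := eq_neg_of_add_eq_zero_left h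
    rw [h2]
    rfl
  · intro h
    rw [h]
    rfl

theorem sigphi_key2 (s : ZMod 3) : s + 1 = 2 ↔ s = 1 := by
  constructor
  · intro h
    have h2 : s + 1 = 1 + 1 := by rw [h]; rfl
    exact add_right_cancel h2
  · intro h
    rw [h]
    rfl

theorem sigphi_key3 (s : ZMod 3) : s + 1 = 1 ↔ s = 0 := by
  constructor
  · intro h
    have h2 : s + 1 = 0 + 1 := by rw [h, zero_add]
    exact add_right_cancel h2
  · intro h
    rw [h, zero_add]

theorem sigphi_del_rot (k j : ℕ) (y0 y1 y2 x0 x1 x2 : ℝ)
    (h0 : wv k y0 = wv k x0) (h1 : wv k y1 = wv k x1) (h2 : wv k y2 = wv k x2)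
    (hs : dig j y0 + dig j y1 + dig j y2 = dig j x0 + dig j x1 + dig j x2 + 1) :
    Del k j y0 y1 y2 ↔ Del k j x2 x0 x1 := by
  unfold Del
  rw [h0, h1, h2, hs]
  have hcomm : dig j x2 + dig j x0 + dig j x1 = dig j x0 + dig j x1 + dig j x2 := by
    rw [add_comm (dig j x2) (dig j x0), add_assoc, add_comm (dig j x2) (dig j x1), ← add_assoc]
  rw [hcomm, sigphi_key1, sigphi_key2, sigphi_key3]
  generalize dig j x0 + dig j x1 + dig j x2 = s
  generalize wv k x0 = w0
  generalize wv k x1 = w1
  generalize wv k x2 = w2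
  constructor
  · rintro (h | h | h)
    · exact Or.inr (Or.inl h)
    · exact Or.inr (Or.inr h)
    · exact Or.inl h
  · rintro (h | h | h)
    · exact Or.inr (Or.inr h)
    · exact Or.inl h
    · exact Or.inr (Or.inl h)

theorem phi_sig {k : ℕ} (e₀ : Edge k) (u : Gam k → ℝ) (f : Edge k) :
    Phi k (sig e₀.1 (e₀.2 : ℕ) u) f =
      if f ∈ tri e₀ then Phi k u (rot (rot f)) else Phi k u f := by
  obtain ⟨v, j⟩ := e₀
  obtain ⟨g, i⟩ := f
  have hc : ∀ (t : Fin k) (a : Gam k), a * gen t * gen t * gen t = a := fun t a => by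
    rw [mul_assoc, mul_assoc, ← mul_assoc (gen t), gen_cube, mul_one]
  have hne1 : ∀ (t : Fin k) (a : Gam k), a * gen t ≠ a := fun t a h =>
    gen_ne_one t (by simpa using h)
  have hne2 : ∀ (t : Fin k) (a : Gam k), a * gen t * gen t ≠ a := fun t a h =>
    gen_sq_ne_one t (by
      rw [mul_assoc] at h
      simpa using h)
  split_ifs with hf
  · rw [mem_tri_iff] at hf
    have hij : i = j := by
      rcases hf with h | h | h
      · exact congrArg Prod.snd h
      · exact congrArg Prod.snd h
      · exact congrArg Prod.snd h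
    subst hij
    have hg : g = v ∨ g = v * gen i ∨ g = v * gen i * gen i := by
      rcases hf with h | h | h
      · exact Or.inl (congrArg Prod.fst h)
      · exact Or.inr (Or.inl (congrArg Prod.fst h))
      · exact Or.inr (Or.inr (congrArg Prod.fst h))
    apply sigphi_phi_congr
    show Del k (i : ℕ) (sig v (i : ℕ) u g) (sig v (i : ℕ) u (g * gen i))
        (sig v (i : ℕ) u (g * gen i * gen i))
      ↔ Del k (i : ℕ) (u (g * gen i * gen i)) (u (g * gen i * gen i * gen i))
        (u (g * gen i * gen i * gen i * gen i))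
    rw [hc i g]
    have hiff : Del k (i : ℕ) (sig v (i : ℕ) u g) (sig v (i : ℕ) u (g * gen i))
        (sig v (i : ℕ) u (g * gen i * gen i))
        ↔ Del k (i : ℕ) (u (g * gen i * gen i)) (u g) (u (g * gen i)) := by
      apply sigphi_del_rot
      · exact sigphi_wv v i u _
      · exact sigphi_wv v i u _
      · exact sigphi_wv v i u _
      · rcases hg with rfl | rfl | rfl
        · rw [sigphi_dig_self, sigphi_dig_other _ _ _ _ (hne1 i g),
            sigphi_dig_other _ _ _ _ (hne2 i g)]
          ring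
        · rw [hc i v, sigphi_dig_self, sigphi_dig_other _ _ _ _ (hne1 i v),
            sigphi_dig_other _ _ _ _ (hne2 i v)]
          ring
        · rw [hc i v, sigphi_dig_self, sigphi_dig_other _ _ _ _ (hne1 i v),
            sigphi_dig_other _ _ _ _ (hne2 i v)]
          ring
    exact hiff
  · apply sigphi_phi_congr
    show Del k (i : ℕ) (sig v (j : ℕ) u g) (sig v (j : ℕ) u (g * gen i))
        (sig v (j : ℕ) u (g * gen i * gen i))
      ↔ Del k (i : ℕ) (u g) (u (g * gen i)) (u (g * gen i * gen i))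
    by_cases hij : (i : ℕ) = (j : ℕ)
    · have hij' : i = j := Fin.ext hij
      subst hij'
      rw [mem_tri_iff] at hf
      have h0 : g ≠ v := fun h => hf (Or.inl (by rw [h]))
      have h1 : g * gen i ≠ v := fun h => hf (Or.inr (Or.inr (by
        have h3 : g = v * gen i * gen i := by rw [← h, hc i g]
        rw [h3]
        rfl)))
      have h2 : g * gen i * gen i ≠ v := fun h => hf (Or.inr (Or.inl (by
        have h3 : g = v * gen i := by rw [← h, hc i g]
        rw [h3]
        rfl)))
      have e0 : sig v (i : ℕ) u g = u g := by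
        unfold sig
        rw [if_neg h0]
      have e1 : sig v (i : ℕ) u (g * gen i) = u (g * gen i) := by
        unfold sig
        rw [if_neg h1]
      have e2 : sig v (i : ℕ) u (g * gen i * gen i) = u (g * gen i * gen i) := by
        unfold sig
        rw [if_neg h2]
      rw [e0, e1, e2]
    · have hdel : Del k (i : ℕ) (sig v (j : ℕ) u g) (sig v (j : ℕ) u (g * gen i))
          (sig v (j : ℕ) u (g * gen i * gen i))
          ↔ Del k (i : ℕ) (u g) (u (g * gen i)) (u (g * gen i * gen i)) := by
        unfold Del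
        simp only [sigphi_wv, sigphi_dig_ne v (j : ℕ) (i : ℕ) hij]
      exact hdel

end Vale.Agent.H38.Fusf
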