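import Vale.Agent.H38.Fusf.Inner

/-!
# P143 free products of Z_3, row FU-2 (Simple): the edges form a simple graph

TASK FU-2: replace the placeholder, keep the statement exactly; helper lemmas with names starting
`simple_`.
Recipe.  For `j : Fin k` let `p j : Gam k →* Multiplicative (ZMod 3)` be
`Monoid.CoprodI.lift (fun i => if i = j then MonoidHom.id _ else 1)` (`Monoid.CoprodI.lift_of`):
`p j (gen j) = ofAdd 1`, `p j (gen i) = 1` for `i ≠ j`.  Hence `gen j ≠ 1`, `gen j * gen j ≠ 1`
(`ofAdd 2 ≠ 1`), `gen i = gen j → i = j`, and `gen i * gen j ≠ 1` for all `i, j`.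
No loops: `e.1 = e.1 * gen e.2` gives `gen e.2 = 1`.  Injectivity: `Set.pair_eq_pair_iff`; either
`e.1 = e'.1` and `gen e.2 = gen e'.2` (after cancelling), so `e = e'` (`Prod.ext`), or
`e.1 = e'.1 * gen e'.2` and `e.1 * gen e.2 = e'.1`, which gives `gen e'.2 * gen e.2 = 1`: impossible.
-/

open MeasureTheory

namespace Vale.Agent.H38.Fusf

/-- The projection of `Gam k` onto its `j`-th free factor. -/
noncomputable def simple_p {k : ℕ} (j : Fin k) : Gam k →* Multiplicative (ZMod 3) :=
  Monoid.CoprodI.lift (M := fun _ : Fin k => Multiplicative (ZMod 3))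
    (fun i => if i = j then MonoidHom.id (Multiplicative (ZMod 3)) else 1)

theorem simple_p_gen_self {k : ℕ} (j : Fin k) :
    simple_p j (gen j) = Multiplicative.ofAdd (1 : ZMod 3) := by
  unfold simple_p gen
  rw [Monoid.CoprodI.lift_of]
  simp

theorem simple_p_gen_ne {k : ℕ} (i j : Fin k) (h : i ≠ j) :
    simple_p j (gen i) = 1 := by
  unfold simple_p gen
  rw [Monoid.CoprodI.lift_of]
  simp [h]

theorem simple_one_ne : Multiplicative.ofAdd (1 : ZMod 3) ≠ 1 := by decide

theorem simple_two_ne :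
    Multiplicative.ofAdd (1 : ZMod 3) * Multiplicative.ofAdd (1 : ZMod 3) ≠ 1 := by decide

theorem simple_gen_ne_one {k : ℕ} (j : Fin k) : gen j ≠ 1 := by
  intro h
  have h1 := congrArg (simple_p j) h
  rw [simple_p_gen_self, MonoidHom.map_one (simple_p j)] at h1
  exact simple_one_ne h1

theorem simple_gen_mul_ne_one {k : ℕ} (i j : Fin k) : gen i * gen j ≠ 1 := by
  intro h
  have h1 := congrArg (simple_p j) h
  rw [MonoidHom.map_mul (simple_p j), simple_p_gen_self, MonoidHom.map_one (simple_p j)] at h1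
  by_cases hij : i = j
  · subst hij
    rw [simple_p_gen_self] at h1
    exact simple_two_ne h1
  · rw [simple_p_gen_ne i j hij, one_mul] at h1
    exact simple_one_ne h1

theorem simple_gen_inj {k : ℕ} (i j : Fin k) (h : gen i = gen j) : i = j := by
  by_contra hij
  have h1 := congrArg (simple_p j) h
  rw [simple_p_gen_self, simple_p_gen_ne i j hij] at h1
  exact simple_one_ne h1.symm

theorem edge_simple (k : ℕ) :
    (∀ e : Edge k, e.1 ≠ e.1 * gen e.2) ∧
      ∀ e e' : Edge k,
        ({e.1, e.1 * gen e.2} : Set (Gam k)) = {e'.1, e'.1 * gen e'.2} → e = e' := by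
  refine ⟨fun e h => ?_, fun e e' h => ?_⟩
  · exact simple_gen_ne_one e.2 (left_eq_mul.mp h)
  · rw [Set.pair_eq_pair_iff] at h
    rcases h with ⟨h1, h2⟩ | ⟨h1, h2⟩
    · rw [h1] at h2
      exact Prod.ext h1 (simple_gen_inj _ _ (mul_left_cancel h2))
    · exfalso
      rw [h1, mul_assoc] at h2
      exact simple_gen_mul_ne_one e'.2 e.2 (mul_eq_left.mp h2)

end Vale.Agent.H38.Fusf
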