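import Vale.Agent.H38.Fusf.Join

/-!
# P143 free products of Z_3, row FU-9 (SpanEx): a connected finite subgraph has a spanning tree

TASK FU-9: `span_exists` is proved below (statement unchanged, no helper lemmas).  Uses
`joined_of_forall`, `joined_of_mem` of Join.lean as black boxes.
Recipe.  The set `S` of all `T ⊆ H` (`H.powerset.filter ...`, classical) which join any two
vertices of `H` contains `H` (this is `hH`).  Take `T ∈ S` of minimal cardinality
(`Finset.exists_min_image`).  If some `e ∈ T` had its ends joined in `T.erase e`, then `T.erase e`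
would join any two vertices of `H` (`joined_of_forall`: every edge of `T` is in `T.erase e` or is
`e`), and it is smaller.
-/

open MeasureTheory

namespace Vale.Agent.H38.Fusf

theorem span_exists {k : ℕ} {H : Finset (Edge k)} (hH : EConn H) : ∃ T, IsSpanTree H T := by
  classical
  let S : Finset (Finset (Edge k)) :=
    H.powerset.filter (fun T => ∀ x y, IsVert H x → IsVert H y → Joined T x y)
  have hHS : H ∈ S :=
    Finset.mem_filter.mpr ⟨Finset.mem_powerset.mpr (Finset.Subset.refl H), hH⟩
  obtain ⟨T, hTS, hmin⟩ := Finset.exists_min_image S Finset.card ⟨H, hHS⟩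
  have hT := Finset.mem_filter.mp hTS
  have hTH : T ⊆ H := Finset.mem_powerset.mp hT.1
  refine ⟨T, hTH, hT.2, ?_⟩
  intro e he hjoin
  have hmem : T.erase e ∈ S := by
    refine Finset.mem_filter.mpr
      ⟨Finset.mem_powerset.mpr ((Finset.erase_subset e T).trans hTH), ?_⟩
    intro x y hx hy
    refine joined_of_forall ?_ (hT.2 x y hx hy)
    intro e' he'
    by_cases hee : e' = e
    · rw [hee]
      exact hjoin
    · exact joined_of_mem (Finset.mem_erase.mpr ⟨hee, he'⟩)
  have hle := hmin (T.erase e) hmem
  have hlt : (T.erase e).card < T.card := Finset.card_erase_lt_of_mem he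
  omega

end Vale.Agent.H38.Fusf
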