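import Vale.Agent.H38.Fusf.Join

/-!
# P143 free products of Z_3, row FU-7 (SpanOne): a spanning tree misses exactly one edge of a triangle

TASK FU-7 (proved; the statement is kept exactly); helper lemmas with names starting
`spanone_`.  Uses Join.lean and Basic.lean as black boxes.
Recipe.  Write `e₀ = e`, `e₁ = rot e`, `e₂ = rot (rot e)`: three different edges of `H`
(`rot_ne`, `rot_rot_ne`, `rot_injective`), `tri e = {e₀, e₁, e₂}`.
* Not all three in `T`: otherwise `Joined (T.erase e₀) e₀.1 (e₀.1 * gen e₀.2)` through `e₂` and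
  `e₁` (`e₂` joins `e₂.1 = e.1 * gen e.2 * gen e.2` and `e₂.1 * gen e₂.2 = e.1` (`rot_rot_tgt`),
  `e₁` joins `e.1 * gen e.2` and `e.1 * gen e.2 * gen e.2`; both are in `T.erase e₀`), against the
  third clause of `IsSpanTree`.
* Not two missing: if `f ∉ T` and `rot (rot f) ∉ T` for some `f ∈ tri e`, then `sep f` says
  `¬ Joined T f.1 (f.1 * gen f.2)`, but both ends of `f ∈ H` are vertices of `H`, so the second
  clause of `IsSpanTree` joins them.  The three pairs of edges of the triangle are
  `{e₁, e₀} = {e₁, rot (rot e₁)}`, `{e₂, e₁} = {e₂, rot (rot e₂)}`, `{e₀, e₂} = {e₀, rot (rot e₀)}`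
  (`rot_rot_rot`).
So exactly one of the three is missing: ` (tri e \ T).card = 1` (`Finset.card_eq_one`).
-/

open MeasureTheory

namespace Vale.Agent.H38.Fusf

theorem spanone_single {k : ℕ} {T : Finset (Edge k)} {e x : Edge k} (hx : x ∈ tri e)
    (hxT : x ∉ T) (h : ∀ f ∈ tri e, f ≠ x → f ∈ T) : (tri e \ T).card = 1 := by
  rw [Finset.card_eq_one]
  refine ⟨x, ?_⟩
  ext f
  rw [Finset.mem_sdiff, Finset.mem_singleton]
  constructor
  · rintro ⟨hf, hfT⟩
    by_contra hne
    exact hfT (h f hf hne)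
  · rintro rfl
    exact ⟨hx, hxT⟩

theorem span_one {k : ℕ} {H T : Finset (Edge k)} (hT : IsSpanTree H T) (e : Edge k)
    (he : tri e ⊆ H) : (tri e \ T).card = 1 := by
  obtain ⟨-, hjoin, hacyc⟩ := hT
  have h01 : rot e ≠ e := rot_ne e
  have h02 : rot (rot e) ≠ e := rot_rot_ne e
  have hB : ∀ f ∈ tri e, f ∉ T → rot (rot f) ∉ T → False := by
    intro f hf h1 h2
    have hfH : f ∈ H := he hf
    exact (sep f h1 h2).1 (hjoin _ _ ⟨f, hfH, Or.inl rfl⟩ ⟨f, hfH, Or.inr rfl⟩)
  have hA : ¬ (e ∈ T ∧ rot e ∈ T ∧ rot (rot e) ∈ T) := by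
    rintro ⟨h0, h1, h2⟩
    apply hacyc e h0
    have m1 : rot e ∈ T.erase e := Finset.mem_erase.2 ⟨h01, h1⟩
    have m2 : rot (rot e) ∈ T.erase e := Finset.mem_erase.2 ⟨h02, h2⟩
    have j1 : Joined (T.erase e) (e.1 * gen e.2) (e.1 * gen e.2 * gen e.2) := joined_of_mem m1
    have j2 : Joined (T.erase e) (e.1 * gen e.2 * gen e.2) e.1 := by
      have j := joined_of_mem m2
      rw [rot_rot_tgt] at j
      exact j
    exact joined_trans (joined_symm j2) (joined_symm j1)
  have m0 : e ∈ tri e := mem_tri_iff.2 (Or.inl rfl)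
  have m1 : rot e ∈ tri e := mem_tri_iff.2 (Or.inr (Or.inl rfl))
  have m2 : rot (rot e) ∈ tri e := mem_tri_iff.2 (Or.inr (Or.inr rfl))
  by_cases c0 : e ∈ T
  · by_cases c1 : rot e ∈ T
    · by_cases c2 : rot (rot e) ∈ T
      · exact absurd ⟨c0, c1, c2⟩ hA
      · refine spanone_single m2 c2 ?_
        intro f hf hne
        rcases mem_tri_iff.1 hf with h | h | h
        · rw [h]; exact c0
        · rw [h]; exact c1
        · exact absurd h hne
    · by_cases c2 : rot (rot e) ∈ T
      · refine spanone_single m1 c1 ?_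
        intro f hf hne
        rcases mem_tri_iff.1 hf with h | h | h
        · rw [h]; exact c0
        · exact absurd h hne
        · rw [h]; exact c2
      · exfalso
        refine hB (rot (rot e)) m2 c2 ?_
        rw [rot_rot_rot]
        exact c1
  · by_cases c2 : rot (rot e) ∈ T
    · by_cases c1 : rot e ∈ T
      · refine spanone_single m0 c0 ?_
        intro f hf hne
        rcases mem_tri_iff.1 hf with h | h | h
        · exact absurd h hne
        · rw [h]; exact c1
        · rw [h]; exact c2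
      · exfalso
        refine hB (rot e) m1 c1 ?_
        rw [rot_rot_rot]
        exact c0
    · exact absurd (hB e m0 c0 c2) id

end Vale.Agent.H38.Fusf
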