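import Vale.Agent.H38.Fusf.SpanOne
import Vale.Agent.H38.Fusf.Pat

/-!
# P143 free products of Z_3, row FU-8 (SpanRho): rotating the missing edge keeps a spanning tree

TASK FU-8: replace the placeholder, keep the statement exactly; helper lemmas with names starting
`spanrho_`.  Uses `span_one`, Join.lean, Pat.lean, Basic.lean as black boxes.
Recipe.  By `span_one` there is a unique `m ∈ tri e` with `m ∉ T`; `tri e = {m, rot m,
rot (rot m)}` (`tri_eq_of_mem`), `rot m ∈ T`, `rot (rot m) ∈ T`.  By `mem_rho_iff`:
`T' := rho e T` has `f ∈ T' ↔ f ∈ T` for `f ∉ tri e`, `m ∈ T'`, `rot (rot m) ∈ T'`, `rot m ∉ T'`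
(`rot (rot (rot m)) = m ∉ T`).
* `T' ⊆ H`: clear.
* Joins: `joined_of_forall`: every edge of `T` is in `T'` or is `rot m`, whose ends
  `m.1 * gen m.2` and `m.1 * gen m.2 * gen m.2` are joined in `T'` through `m` and `rot (rot m)`
  (`rot_rot_tgt`).
* No redundant edge, `f ∈ T'`:
  - `f = m`: `T'.erase m` contains neither `rot m` nor `m = rot (rot (rot m))`; `sep (rot m)` (second
    part) gives `¬ Joined _ (m.1 * gen m.2) (m.1 * gen m.2 * gen m.2 * gen m.2)`, and
    `m.1 * gen m.2 * gen m.2 * gen m.2 = m.1` (`gen_cube`, `mul_assoc`); use `joined_symm`.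
  - `f = rot (rot m)`: `T'.erase f` contains neither `f` nor `rot (rot f) = rot m`; `sep f` (first
    part).
  - `f ∉ tri e` (so `f ∈ T`): if the ends of `f` were joined in `T'.erase f`, then by
    `joined_of_forall` also in `T.erase f` (every edge of `T'.erase f` is in `T.erase f` or is `m`,
    whose ends are joined in `T.erase f` through `rot m` and `rot (rot m)`, both in `T.erase f`),
    against `hT`.
-/

open MeasureTheory

namespace Vale.Agent.H38.Fusf

theorem span_rho {k : ℕ} {H T : Finset (Edge k)} (hT : IsSpanTree H T) (e : Edge k)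
    (he : tri e ⊆ H) : IsSpanTree H (rho e T) := by
  obtain ⟨hTH, hJ, hN⟩ := hT
  have h1 := span_one ⟨hTH, hJ, hN⟩ e he
  obtain ⟨m, hm⟩ := Finset.card_eq_one.mp h1
  have hm' : m ∈ tri e \ T := by rw [hm]; exact Finset.mem_singleton_self m
  have hme : m ∈ tri e := (Finset.mem_sdiff.mp hm').1
  have hmT : m ∉ T := (Finset.mem_sdiff.mp hm').2
  have htri : tri m = tri e := tri_eq_of_mem hme
  have huniq : ∀ f, f ∈ tri e → f ∉ T → f = m := by
    intro f hf hfT
    have hf' : f ∈ tri e \ T := Finset.mem_sdiff.mpr ⟨hf, hfT⟩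
    rw [hm] at hf'
    exact Finset.mem_singleton.mp hf'
  have hrme : rot m ∈ tri e := by
    rw [← htri]; exact mem_tri_iff.mpr (Or.inr (Or.inl rfl))
  have hrrme : rot (rot m) ∈ tri e := by
    rw [← htri]; exact mem_tri_iff.mpr (Or.inr (Or.inr rfl))
  have hrmT : rot m ∈ T := by
    by_contra h
    exact rot_ne m (huniq _ hrme h)
  have hrrmT : rot (rot m) ∈ T := by
    by_contra h
    exact rot_rot_ne m (huniq _ hrrme h)
  have hcases : ∀ f, f ∈ tri e → f = m ∨ f = rot m ∨ f = rot (rot m) := by
    intro f hf
    rw [← htri] at hf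
    exact mem_tri_iff.mp hf
  have hmT' : m ∈ rho e T := mem_rho_iff.mpr (Or.inr ⟨hme, hrrmT⟩)
  have hrrmT' : rot (rot m) ∈ rho e T := by
    refine mem_rho_iff.mpr (Or.inr ⟨hrrme, ?_⟩)
    rw [rot_rot_rot (rot m)]
    exact hrmT
  have hrmT' : rot m ∉ rho e T := by
    intro h
    rcases mem_rho_iff.mp h with h | h
    · exact h.1 hrme
    · rw [rot_rot_rot m] at h
      exact hmT h.2
  have hout : ∀ f, f ∉ tri e → (f ∈ rho e T ↔ f ∈ T) := by
    intro f hf
    constructor
    · intro h
      rcases mem_rho_iff.mp h with h | h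
      · exact h.2
      · exact absurd h.1 hf
    · intro h
      exact mem_rho_iff.mpr (Or.inl ⟨hf, h⟩)
  have hJm : Joined (rho e T) (m.1 * gen m.2) (m.1 * gen m.2 * gen m.2) := by
    have a1 : Joined (rho e T) m.1 (m.1 * gen m.2) := joined_of_mem hmT'
    have a2 : Joined (rho e T) (m.1 * gen m.2 * gen m.2) m.1 := by
      have a3 := joined_of_mem hrrmT'
      rw [rot_rot_tgt] at a3
      exact a3
    exact joined_trans (joined_symm a1) (joined_symm a2)
  refine ⟨?_, ?_, ?_⟩
  · intro f hf
    rcases mem_rho_iff.mp hf with h | h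
    · exact hTH h.2
    · exact he h.1
  · intro x y hx hy
    refine joined_of_forall ?_ (hJ x y hx hy)
    intro f hf
    by_cases hfe : f ∈ tri e
    · rcases hcases f hfe with h | h | h
      · rw [h] at hf
        exact absurd hf hmT
      · rw [h]
        exact hJm
      · rw [h]
        exact joined_of_mem hrrmT'
    · exact joined_of_mem ((hout f hfe).mpr hf)
  · intro f hf
    by_cases hfe : f ∈ tri e
    · rcases hcases f hfe with h | h | h
      · rw [h]
        intro hj
        have hs := (sep (T := (rho e T).erase m) (rot m)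
          (fun h' => hrmT' (Finset.mem_of_mem_erase h'))
          (by rw [rot_rot_rot m]; simp)).2
        apply hs
        have hg : m.1 * gen m.2 * gen m.2 * gen m.2 = m.1 := by
          rw [mul_assoc, mul_assoc, ← mul_assoc (gen m.2), gen_cube, mul_one]
        show Joined ((rho e T).erase m) (m.1 * gen m.2) (m.1 * gen m.2 * gen m.2 * gen m.2)
        rw [hg]
        exact joined_symm hj
      · rw [h] at hf
        exact absurd hf hrmT'
      · rw [h]
        exact (sep (T := (rho e T).erase (rot (rot m))) (rot (rot m))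
          (by simp)
          (by rw [rot_rot_rot (rot m)]; exact fun h' => hrmT' (Finset.mem_of_mem_erase h'))).1
    · have hfT : f ∈ T := (hout f hfe).mp hf
      intro hj
      apply hN f hfT
      refine joined_of_forall ?_ hj
      intro g hg
      have hgf : g ≠ f := Finset.ne_of_mem_erase hg
      have hgT' : g ∈ rho e T := Finset.mem_of_mem_erase hg
      by_cases hge : g ∈ tri e
      · rcases hcases g hge with h | h | h
        · rw [h]
          have hrmf : rot m ≠ f := fun h' => hfe (h' ▸ hrme)
          have hrrmf : rot (rot m) ≠ f := fun h' => hfe (h' ▸ hrrme)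
          have b1 : Joined (T.erase f) (m.1 * gen m.2) (m.1 * gen m.2 * gen m.2) :=
            joined_of_mem (Finset.mem_erase.mpr ⟨hrmf, hrmT⟩)
          have b2 : Joined (T.erase f) (m.1 * gen m.2 * gen m.2) m.1 := by
            have b3 := joined_of_mem (Finset.mem_erase.mpr ⟨hrrmf, hrrmT⟩)
            rw [rot_rot_tgt] at b3
            exact b3
          exact joined_symm (joined_trans b1 b2)
        · rw [h] at hgT'
          exact absurd hgT' hrmT'
        · have hgT : g ∈ T := by rw [h]; exact hrrmT
          exact joined_of_mem (Finset.mem_erase.mpr ⟨hgf, hgT⟩)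
      · exact joined_of_mem (Finset.mem_erase.mpr ⟨hgf, (hout g hge).mp hgT'⟩)

end Vale.Agent.H38.Fusf
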