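import Vale.Agent.H38.Fusf.Inner

/-!
# P143 free products of Z_3, row FU-3 (Word): the first letter survives right multiplication

TASK FU-3: replace every placeholder, keep the statements exactly; helper lemmas with names
starting `word_`.
`Monoid.CoprodI.Word.equiv : CoprodI M ≃ Word M` is the normal form; `fstIdx` is the index of the
first letter of a reduced word (`none` for the empty word).
Recipe for `word_fst` (word lemma (L) of the paper proof): induction on the reduced word of `h`
(`Monoid.CoprodI.Word.consRecOn` on `w := Word.equiv h`, with `h = w.prod`; or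
`Monoid.CoprodI.induction_left`-style).  Write `h = of m₁ * h'` with
`Word.equiv h = Word.cons m₁ w'` (`Word.prod_cons`, `Word.cons_eq_smul`, `Word.fstIdx_cons`,
`Word.equiv` is `w ↦ w.prod` inverse; `Word.equiv_symm_apply` / `Word.prod_smul`), first index `j`,
`w'.fstIdx ≠ some j`.  Then `h * of m = of m₁ * (h' * of m)`.
* `w'` empty (`h' = 1`): `h * of m = of m₁ * of m`.  If `i = j` this is `of (m₁ * m)`: `1` or a
  one-letter word with first index `j`.  If `i ≠ j` and `m ≠ 1` it is the two-letter word
  `cons m₁ (cons m empty)`, first index `j`; if `m = 1` it is `of m₁`.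
* `w'` not empty, first index `j' ≠ j`: by induction `h' * of m = 1` (then `h * of m = of m₁`,
  first index `j`) or the first index of `h' * of m` is `j'`; then
  `Word.equiv (of m₁ * (h' * of m)) = cons m₁ (Word.equiv (h' * of m))`, first index `j`.
The key identity: if `w.fstIdx ≠ some j` and `m₁ ≠ 1` then `Word.equiv (of m₁ * w.prod) =
Word.cons m₁ w _ _` (from `Word.prod_cons` and `Equiv.apply_symm_apply`).
-/

open MeasureTheory

namespace Vale.Agent.H38.Fusf

section WordAux

open Monoid.CoprodI

variable {ι : Type*} {M : ι → Type*} [∀ i, Monoid (M i)] [DecidableEq ι]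
  [∀ i, DecidableEq (M i)]

theorem word_equiv_prod (w : Word M) : Word.equiv w.prod = w :=
  Word.equiv.apply_symm_apply w

theorem word_prod_equiv (x : Monoid.CoprodI M) : (Word.equiv x).prod = x :=
  Word.equiv.symm_apply_apply x

theorem word_fst_cons_mul {i : ι} (m : M i) (hm : m ≠ 1) (x : Monoid.CoprodI M)
    (hx : (Word.equiv x).fstIdx ≠ some i) :
    (Word.equiv (of m * x)).fstIdx = some i := by
  have h : of m * x = (Word.cons m (Word.equiv x) hx hm).prod := by
    rw [Word.prod_cons, word_prod_equiv]
  rw [h, word_equiv_prod, Word.fstIdx_cons]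

theorem word_equiv_one : Word.equiv (1 : Monoid.CoprodI M) = Word.empty := by
  have := word_equiv_prod (Word.empty : Word M)
  rwa [Word.prod_empty] at this

theorem word_fst_of_gen {i : ι} (m : M i) (hm : m ≠ 1) :
    (Word.equiv (of m : Monoid.CoprodI M)).fstIdx = some i := by
  have := word_fst_cons_mul m hm (1 : Monoid.CoprodI M)
    (by rw [word_equiv_one]; simp [Word.fstIdx])
  rwa [mul_one] at this

omit [DecidableEq ι] [∀ i, DecidableEq (M i)] in
theorem word_eq_empty_of_fstIdx {w : Word M} (h : w.fstIdx = none) : w = Word.empty := by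
  apply Word.ext
  simp only [Word.fstIdx, Option.map_eq_none_iff, List.head?_eq_none_iff] at h
  simpa using h

theorem word_fst_gen (w : Word M) : ∀ (j : ι), w.fstIdx = some j → ∀ (i : ι) (m : M i),
    w.prod * of m = 1 ∨ (Word.equiv (w.prod * of m)).fstIdx = some j := by
  induction w using Word.consRecOn with
  | empty => intro j hj; simp [Word.fstIdx] at hj
  | cons i₁ m₁ w' h1 h2 ih =>
    intro j hj i m
    rw [Word.fstIdx_cons] at hj
    have hj' : i₁ = j := Option.some.inj hj
    subst hj'
    rw [Word.prod_cons, mul_assoc]
    rcases hw' : w'.fstIdx with _ | j'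
    · have hw'e := word_eq_empty_of_fstIdx hw'
      subst hw'e
      rw [Word.prod_empty, one_mul]
      by_cases hm : m = 1
      · right
        subst hm
        rw [map_one, mul_one]
        exact word_fst_of_gen m₁ h2
      · by_cases hii : i = i₁
        · subst hii
          rw [← map_mul]
          by_cases hmm : m₁ * m = 1
          · left; rw [hmm, map_one]
          · right; exact word_fst_of_gen _ hmm
        · right
          apply word_fst_cons_mul m₁ h2
          rw [word_fst_of_gen m hm]
          intro h; exact hii (Option.some.inj h)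
    · have hne : j' ≠ i₁ := by
        rintro rfl; exact h1 hw'
      rcases ih j' hw' i m with h | h
      · right
        rw [h, mul_one]
        exact word_fst_of_gen m₁ h2
      · right
        apply word_fst_cons_mul m₁ h2
        rw [h]
        intro h'; exact hne (Option.some.inj h')

end WordAux

theorem word_fst_one {k : ℕ} :
    (Monoid.CoprodI.Word.equiv (1 : Gam k)).fstIdx = none := by
  rw [word_equiv_one]; rfl

theorem word_fst_of {k : ℕ} (i : Fin k) (m : Multiplicative (ZMod 3)) (hm : m ≠ 1) :
    (Monoid.CoprodI.Word.equiv
      (Monoid.CoprodI.of (M := fun _ : Fin k => Multiplicative (ZMod 3)) (i := i) m)).fstIdx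
      = some i :=
  word_fst_of_gen (M := fun _ : Fin k => Multiplicative (ZMod 3)) m hm

theorem word_fst {k : ℕ} (h : Gam k) (j : Fin k)
    (hj : (Monoid.CoprodI.Word.equiv h).fstIdx = some j) (i : Fin k)
    (m : Multiplicative (ZMod 3)) :
    h * Monoid.CoprodI.of (M := fun _ : Fin k => Multiplicative (ZMod 3)) (i := i) m = 1 ∨
      (Monoid.CoprodI.Word.equiv
        (h * Monoid.CoprodI.of (M := fun _ : Fin k => Multiplicative (ZMod 3)) (i := i) m)).fstIdx
        = some j := by
  have := word_fst_gen (Monoid.CoprodI.Word.equiv h) j hj i m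
  rwa [word_prod_equiv] at this

end Vale.Agent.H38.Fusf
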